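import Mathlib

/-!
# P037, part 1: the closure extension lemma

A family of column sets `A q` indexed by anchor rows `q ∈ Q` is `GFam` if it contains no ordered
copy of the pattern with rows (1,1),(1,0).  Given such an exact skeleton, every other row can be
filled in by closing a subset of an earlier anchor under the rules of all earlier anchors, and the
resulting full family is again free of the pattern.
-/

namespace Vale.Agent.Lib.P037

open Relation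

set_option linter.unusedSectionVars false

variable {ρ γ : Type*} [LinearOrder ρ] [LinearOrder γ]

/-- The family `A` restricted to the rows of `Q` has no copy of the pattern (1,1),(1,0). -/
def GFam (Q : Set ρ) (A : ρ → Set γ) : Prop :=
  ∀ q ∈ Q, ∀ q' ∈ Q, q < q' → ∀ x y, x < y → x ∈ A q → y ∈ A q → x ∈ A q' → y ∈ A q'

/-- One derivation step: `x < y` lie in a common anchor set of `E`. -/
def Step (E : Set ρ) (A : ρ → Set γ) (x y : γ) : Prop :=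
  x < y ∧ ∃ q ∈ E, x ∈ A q ∧ y ∈ A q

/-- Closure of `F` under the steps of `E`. -/
def Cl (E : Set ρ) (A : ρ → Set γ) (F : Set γ) : Set γ :=
  {y | ∃ x ∈ F, ReflTransGen (Step E A) x y}

theorem Step.mono {E E' : Set ρ} {A : ρ → Set γ} (h : E ⊆ E') {x y : γ} (hs : Step E A x y) :
    Step E' A x y := by
  obtain ⟨h1, q, hq, h2, h3⟩ := hs
  exact ⟨h1, q, h hq, h2, h3⟩

theorem subset_Cl (E : Set ρ) (A : ρ → Set γ) (F : Set γ) : F ⊆ Cl E A F :=
  fun x hx => ⟨x, hx, ReflTransGen.refl⟩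

theorem transfer {Q : Set ρ} {A : ρ → Set γ} (hG : GFam Q A) {E : Set ρ} (hE : E ⊆ Q)
    {u c d : γ} (h : ReflTransGen (Step E A) u c) (hcd : c < d)
    (hu : ∃ e ∈ E, u ∈ A e ∧ d ∈ A e) : ∃ e ∈ E, c ∈ A e ∧ d ∈ A e := by
  induction h with
  | refl => exact hu
  | tail _ hbc ih =>
    obtain ⟨hlt, ε, hε, hbε, hcε⟩ := hbc
    obtain ⟨e', he', hbe', hde'⟩ := ih (hlt.trans hcd)
    rcases lt_trichotomy ε e' with h1 | h1 | h1
    · exact ⟨e', he', hG ε (hE hε) e' (hE he') h1 _ _ hlt hbε hcε hbe', hde'⟩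
    · subst h1
      exact ⟨ε, hε, hcε, hde'⟩
    · exact ⟨ε, hε, hcε, hG e' (hE he') ε (hE hε) h1 _ _ (hlt.trans hcd) hbe' hde' hbε⟩

theorem upconn [WellFoundedLT γ] {Q : Set ρ} {A : ρ → Set γ} (hG : GFam Q A) {E : Set ρ}
    (hE : E ⊆ Q) {f : ρ} (hf : f ∈ E) {F : Set γ} (hF : F ⊆ A f) :
    ∀ d c, c ∈ Cl E A F → d ∈ Cl E A F → c < d → ReflTransGen (Step E A) c d := by
  intro d
  induction d using WellFoundedLT.induction with
  | ind d ih =>
    intro c hc hd hcd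
    obtain ⟨d0, hd0F, hd0⟩ := hd
    rcases ReflTransGen.cases_tail hd0 with h | ⟨d', hd', hstep⟩
    · subst h
      obtain ⟨c0, hc0F, hc0⟩ := hc
      obtain ⟨e, he, h1, h2⟩ := transfer hG hE hc0 hcd ⟨f, hf, hF hc0F, hF hd0F⟩
      exact ReflTransGen.single ⟨hcd, e, he, h1, h2⟩
    · have hd'X : d' ∈ Cl E A F := ⟨d0, hd0F, hd'⟩
      obtain ⟨hlt, e, he, h1, h2⟩ := hstep
      rcases lt_trichotomy c d' with h3 | h3 | h3
      · exact (ih d' hlt c hc hd'X h3).tail ⟨hlt, e, he, h1, h2⟩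
      · subst h3
        exact ReflTransGen.single ⟨hlt, e, he, h1, h2⟩
      · have h4 := ih c hcd d' hd'X hc h3
        obtain ⟨e', he', h5, h6⟩ := transfer hG hE h4 hcd ⟨e, he, h1, h2⟩
        exact ReflTransGen.single ⟨hcd, e', he', h5, h6⟩

/-- The closure stays inside any later anchor containing the seed. -/
theorem Cl_subset_anchor {Q : Set ρ} {A : ρ → Set γ} (hG : GFam Q A) {E : Set ρ} (hE : E ⊆ Q)
    {g : ρ} (hg : g ∈ Q) (hEg : ∀ q ∈ E, q ≤ g) {F : Set γ} (hF : F ⊆ A g) :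
    Cl E A F ⊆ A g := by
  rintro y ⟨x, hx, h⟩
  induction h with
  | refl => exact hF hx
  | tail _ hbc ih =>
    obtain ⟨hlt, q, hq, h1, h2⟩ := hbc
    rcases (hEg q hq).lt_or_eq with h3 | h3
    · exact hG q (hE hq) g hg h3 _ _ hlt h1 h2 ih
    · subst h3
      exact h2

/-- The filled-in family. -/
def Fill (Q : Set ρ) (A : ρ → Set γ) (cov : Set ρ) (F : ρ → Set γ) (r : ρ) : Set γ :=
  {y | r ∈ cov ∧ y ∈ Cl {q | q ∈ Q ∧ q ≤ r} A (F r)}

theorem Fill_gfree [WellFoundedLT γ] {Q : Set ρ} {A : ρ → Set γ} (hG : GFam Q A) (cov : Set ρ)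
    (F : ρ → Set γ) (f : ρ → ρ)
    (hf : ∀ r ∈ cov, f r ∈ Q ∧ f r ≤ r ∧ F r ⊆ A (f r)) :
    GFam Set.univ (Fill Q A cov F) := by
  intro r1 _ r2 _ h12 c1 c2 hc h1 h2 h3
  obtain ⟨hr1, h1⟩ := h1
  obtain ⟨_, h2⟩ := h2
  obtain ⟨hr2, x, hx, h3⟩ := h3
  obtain ⟨hfQ, hfr, hFA⟩ := hf r1 hr1
  have hE : {q | q ∈ Q ∧ q ≤ r1} ⊆ Q := fun q hq => hq.1
  have hconn := upconn hG hE (f := f r1) ⟨hfQ, hfr⟩ hFA c2 c1 h1 h2 hc
  have hmono : ReflTransGen (Step {q | q ∈ Q ∧ q ≤ r2} A) c1 c2 := by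
    refine ReflTransGen.mono ?_ _ _ hconn
    intro a b hab
    have hsub : {q | q ∈ Q ∧ q ≤ r1} ⊆ {q | q ∈ Q ∧ q ≤ r2} :=
      fun q hq => ⟨hq.1, hq.2.trans h12.le⟩
    exact Step.mono hsub hab
  exact ⟨hr2, x, hx, h3.trans hmono⟩

theorem Fill_lower {Q : Set ρ} {A : ρ → Set γ} {cov : Set ρ} {F : ρ → Set γ} {r : ρ}
    (hr : r ∈ cov) : F r ⊆ Fill Q A cov F r :=
  fun _ hx => ⟨hr, subset_Cl _ _ _ hx⟩

theorem Fill_upper {Q : Set ρ} {A : ρ → Set γ} (hG : GFam Q A) {cov : Set ρ} {F : ρ → Set γ}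
    {r g : ρ} (hg : g ∈ Q) (hrg : r ≤ g) (hF : F r ⊆ A g) : Fill Q A cov F r ⊆ A g := by
  rintro y ⟨_, hy⟩
  exact Cl_subset_anchor hG (fun q hq => hq.1) hg (fun q hq => hq.2.trans hrg) hF hy

theorem Fill_empty {Q : Set ρ} {A : ρ → Set γ} {cov : Set ρ} {F : ρ → Set γ} {r : ρ}
    (hr : r ∉ cov) : Fill Q A cov F r = ∅ := by
  ext y
  simp [Fill, hr]

end Vale.Agent.Lib.P037
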