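import Mathlib

/-!
# P037: definitions used in the statement
-/

namespace Vale.Agent.Lib.P037

open Classical in
/-- The ordered copies of the `k × k` pattern `H` in the `n × n` binary matrix `A`: pairs of
strictly increasing row and column index maps along which `A` agrees with `H` (zeros as well as
ones are matched). -/
noncomputable def copies {k n : ℕ} (H : Fin k → Fin k → Bool) (A : Fin n → Fin n → Bool) :
    Finset ((Fin k → Fin n) × (Fin k → Fin n)) :=
  Finset.univ.filter fun p =>
    StrictMono p.1 ∧ StrictMono p.2 ∧ ∀ i j, A (p.1 i) (p.2 j) = H i j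

/-- The number of entries in which two `n × n` binary matrices differ. -/
def hamming {n : ℕ} (A B : Fin n → Fin n → Bool) : ℕ :=
  (Finset.univ.filter fun p : Fin n × Fin n => A p.1 p.2 ≠ B p.1 p.2).card

/-- The polynomial removal property of question Q1 for the pattern `H`: there are constants
`c > 0` and `C > 0` such that every `n × n` binary matrix `A` that differs from every `H`-free
matrix in at least `ε n ^ 2` entries has at least `c ε ^ C n ^ (2 k)` ordered copies of `H`. -/
def PolyRemoval {k : ℕ} (H : Fin k → Fin k → Bool) : Prop :=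
  ∃ c : ℝ, 0 < c ∧ ∃ C : ℕ, 0 < C ∧
    ∀ (n : ℕ) (ε : ℝ) (A : Fin n → Fin n → Bool), 0 < ε → ε < 1 →
      (∀ B : Fin n → Fin n → Bool, copies H B = ∅ → ε * (n : ℝ) ^ 2 ≤ (hamming A B : ℝ)) →
      c * ε ^ C * (n : ℝ) ^ (2 * k) ≤ ((copies H A).card : ℝ)

end Vale.Agent.Lib.P037
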