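import Mathlib
import Vale.Agent.Lib.P037.Core

/-!
# P037, part 6: choice of parameters (integer form of the removal lemma)
-/

namespace Vale.Agent.Lib.P037

open Finset

set_option linter.unusedSectionVars false

/-- the polynomial appearing in the integer form -/
def polyP (t : ℕ) : ℕ :=
  1024 * t ^ 2 * (56 * t) ^ 2 * (2 + (2 * (56 * t)) * (56 * t + 1)) ^ 5

theorem lt_div_succ_mul (n d : ℕ) (hd : 0 < d) : n < (n / d + 1) * d := by
  have h1 := Nat.div_add_mod n d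
  have h2 := Nat.mod_lt n hd
  nlinarith

theorem arith_bad (n t d K1 a s κ b N : ℕ) (hn2 : n ≤ 2 * d * a)
    (hκ2 : n < (κ + 1) * (8 * t * K1)) (hs2 : a < (s + 1) * (2 * K1 ^ 2))
    (hbc : b * ((κ + 1) * (s * (s + 1) + 1)) ≤ 2 * N)
    (hN : N * (1024 * t ^ 2 * d ^ 2 * K1 ^ 5) < n ^ 4) : 2 * t * b < n := by
  by_contra hcon
  push Not at hcon
  have e1 : n * a ^ 2 ≤ (κ + 1) * (8 * t * K1) * ((s + 1) * (2 * K1 ^ 2)) ^ 2 :=
    Nat.mul_le_mul hκ2.le (Nat.pow_le_pow_left hs2.le 2)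
  have e2 : (s + 1) ^ 2 ≤ 2 * (s * (s + 1) + 1) := by nlinarith
  have e3 : (κ + 1) * (8 * t * K1) * ((s + 1) * (2 * K1 ^ 2)) ^ 2
      ≤ 64 * t * K1 ^ 5 * ((κ + 1) * (s * (s + 1) + 1)) := by
    calc (κ + 1) * (8 * t * K1) * ((s + 1) * (2 * K1 ^ 2)) ^ 2
        = 32 * t * K1 ^ 5 * (κ + 1) * (s + 1) ^ 2 := by ring
      _ ≤ 32 * t * K1 ^ 5 * (κ + 1) * (2 * (s * (s + 1) + 1)) := Nat.mul_le_mul_left _ e2
      _ = 64 * t * K1 ^ 5 * ((κ + 1) * (s * (s + 1) + 1)) := by ring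
  have e4 : n ^ 3 ≤ 4 * d ^ 2 * (n * a ^ 2) := by
    have : n ^ 2 ≤ (2 * d * a) ^ 2 := Nat.pow_le_pow_left hn2 2
    calc n ^ 3 = n * n ^ 2 := by ring
      _ ≤ n * (2 * d * a) ^ 2 := Nat.mul_le_mul_left _ this
      _ = 4 * d ^ 2 * (n * a ^ 2) := by ring
  have e5 : b * n ^ 3 ≤ 512 * t * d ^ 2 * K1 ^ 5 * N := by
    calc b * n ^ 3 ≤ b * (4 * d ^ 2 * (64 * t * K1 ^ 5 * ((κ + 1) * (s * (s + 1) + 1)))) :=
          Nat.mul_le_mul_left _ (e4.trans (Nat.mul_le_mul_left _ (e1.trans e3)))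
      _ = 256 * t * d ^ 2 * K1 ^ 5 * (b * ((κ + 1) * (s * (s + 1) + 1))) := by ring
      _ ≤ 256 * t * d ^ 2 * K1 ^ 5 * (2 * N) := Nat.mul_le_mul_left _ hbc
      _ = 512 * t * d ^ 2 * K1 ^ 5 * N := by ring
  have e6 : n ^ 4 ≤ N * (1024 * t ^ 2 * d ^ 2 * K1 ^ 5) := by
    calc n ^ 4 = n * n ^ 3 := by ring
      _ ≤ 2 * t * b * n ^ 3 := Nat.mul_le_mul_right _ hcon
      _ = 2 * t * (b * n ^ 3) := by ring
      _ ≤ 2 * t * (512 * t * d ^ 2 * K1 ^ 5 * N) := Nat.mul_le_mul_left _ e5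
      _ = N * (1024 * t ^ 2 * d ^ 2 * K1 ^ 5) := by ring
  omega

theorem arith_final (n t K K1 κ a b S : ℕ) (hn0 : 0 < n) (hbad : 2 * t * b < n) (hKK : K ≤ K1)
    (hκ1 : 8 * t * K1 * κ ≤ n) (hda : 56 * t * a ≤ n)
    (hS : S ≤ (b + 2 * K * κ) * n + n * (14 * a)) : t * S < n ^ 2 := by
  have f1 : 4 * (t * (b * n)) < 2 * n ^ 2 := by
    calc 4 * (t * (b * n)) = 2 * ((2 * t * b) * n) := by ring
      _ < 2 * (n * n) := by
        apply Nat.mul_lt_mul_of_pos_left _ (by norm_num)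
        exact Nat.mul_lt_mul_of_pos_right hbad hn0
      _ = 2 * n ^ 2 := by ring
  have f2 : 4 * (t * (2 * K * κ * n)) ≤ n ^ 2 := by
    have h2 : 8 * t * K * κ ≤ 8 * t * K1 * κ :=
      Nat.mul_le_mul_right _ (Nat.mul_le_mul_left _ hKK)
    calc 4 * (t * (2 * K * κ * n)) = 8 * t * K * κ * n := by ring
      _ ≤ n * n := Nat.mul_le_mul_right _ (h2.trans hκ1)
      _ = n ^ 2 := by ring
  have f3 : 4 * (t * (n * (14 * a))) ≤ n ^ 2 := by
    calc 4 * (t * (n * (14 * a))) = (56 * t * a) * n := by ring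
      _ ≤ n * n := Nat.mul_le_mul_right _ hda
      _ = n ^ 2 := by ring
  have f4 : t * S ≤ t * ((b + 2 * K * κ) * n + n * (14 * a)) := Nat.mul_le_mul_left _ hS
  have f5 : t * ((b + 2 * K * κ) * n + n * (14 * a))
      = t * (b * n) + t * (2 * K * κ * n) + t * (n * (14 * a)) := by ring
  omega

theorem arith_small (n t N : ℕ) (ht : 1 ≤ t) (hnd : n < 56 * t) (hN : N * polyP t < n ^ 4) :
    N = 0 := by
  by_contra hne
  have h1 : 1 ≤ N := Nat.one_le_iff_ne_zero.mpr hne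
  have h2 : n ^ 4 < (56 * t) ^ 4 := Nat.pow_lt_pow_left hnd (by norm_num)
  have h3 : (56 * t) ^ 4 ≤ polyP t := by
    unfold polyP
    generalize 56 * t = d
    have h4 : d ^ 2 ≤ (2 + (2 * d) * (d + 1)) ^ 5 := by
      have h5 : d ≤ 2 + (2 * d) * (d + 1) := by nlinarith
      have h6 : 1 ≤ 2 + (2 * d) * (d + 1) := by omega
      calc d ^ 2 ≤ (2 + (2 * d) * (d + 1)) ^ 2 := Nat.pow_le_pow_left h5 2
        _ ≤ (2 + (2 * d) * (d + 1)) ^ 5 := Nat.pow_le_pow_right h6 (by norm_num)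
    have h7 : 1 ≤ 1024 * t ^ 2 := by
      have : 1 ≤ t ^ 2 := Nat.one_le_pow _ _ ht
      omega
    calc d ^ 4 = 1 * d ^ 2 * d ^ 2 := by ring
      _ ≤ 1024 * t ^ 2 * d ^ 2 * (2 + (2 * d) * (d + 1)) ^ 5 :=
        Nat.mul_le_mul (Nat.mul_le_mul_right _ h7) h4
  have h8 : polyP t ≤ N * polyP t := Nat.le_mul_of_pos_left _ h1
  omega

variable {ρ γ : Type*} [LinearOrder ρ] [LinearOrder γ] [Fintype ρ] [Fintype γ]

theorem free_of_Ncop_zero (R : ρ → Finset γ) (h : Ncop R = 0) :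
    ∀ r1 r2, r1 < r2 → ∀ c1 c2, c1 < c2 → c1 ∈ R r1 → c2 ∈ R r1 → c1 ∈ R r2 → c2 ∈ R r2 := by
  intro r1 r2 h12 c1 c2 hc h1 h2 h3
  by_contra h4
  unfold Ncop at h
  rw [Finset.sum_eq_zero_iff] at h
  have h5 := h r1 (Finset.mem_univ _)
  rw [Finset.sum_eq_zero_iff] at h5
  have h6 := h5 r2 (Finset.mem_univ _)
  unfold V at h6
  rw [if_pos h12, Finset.card_eq_zero] at h6
  have : (c1, c2) ∈ violSet (R r1) (R r2) := mem_violSet.mpr ⟨hc, h1, h2, h3, h4⟩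
  rw [h6] at this
  exact absurd this (Finset.notMem_empty _)

theorem int_removal (R : ρ → Finset γ) (n t : ℕ) (ht : 1 ≤ t) (hρ : Fintype.card ρ = n)
    (hγ : Fintype.card γ = n) (hN : Ncop R * polyP t < n ^ 4) :
    ∃ B : ρ → Finset γ,
      (∀ r1 r2, r1 < r2 → ∀ c1 c2, c1 < c2 → c1 ∈ B r1 → c2 ∈ B r1 → c1 ∈ B r2 → c2 ∈ B r2) ∧
      t * ∑ r, sd (B r) (R r) < n ^ 2 := by
  have hn0 : 0 < n := by
    rcases Nat.eq_zero_or_pos n with h | h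
    · subst h
      simp at hN
    · exact h
  by_cases hnd : n < 56 * t
  · have hN0 : Ncop R = 0 := arith_small n t _ ht hnd hN
    refine ⟨R, free_of_Ncop_zero R hN0, ?_⟩
    simp only [sd_self, Finset.sum_const_zero, mul_zero]
    positivity
  · push Not at hnd
    obtain ⟨d, hd⟩ : ∃ d, d = 56 * t := ⟨_, rfl⟩
    have hd0 : 0 < d := by omega
    obtain ⟨K1, hK1⟩ : ∃ K1, K1 = 2 + (2 * d) * (d + 1) := ⟨_, rfl⟩
    have hP : polyP t = 1024 * t ^ 2 * d ^ 2 * K1 ^ 5 := by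
      rw [hK1, hd]; rfl
    obtain ⟨a, ha⟩ : ∃ a, a = n / d := ⟨_, rfl⟩
    have ha1 : 1 ≤ a := by
      rw [ha]; exact (Nat.one_le_div_iff hd0).mpr (hd ▸ hnd)
    have hda : d * a ≤ n := by rw [ha]; exact Nat.mul_div_le n d
    have hn2 : n ≤ 2 * d * a := by
      have := lt_div_succ_mul n d hd0
      rw [← ha] at this
      nlinarith
    obtain ⟨K, hK⟩ : ∃ K, K = 1 + (n / a) * (n / (2 * a) + 1) := ⟨_, rfl⟩
    have hKK1 : K + 1 ≤ K1 := by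
      have h1 : n / a ≤ 2 * d := Nat.div_le_of_le_mul (by nlinarith)
      have h2 : n / (2 * a) ≤ d := Nat.div_le_of_le_mul (by nlinarith)
      have h3 : (n / a) * (n / (2 * a) + 1) ≤ (2 * d) * (d + 1) :=
        Nat.mul_le_mul h1 (Nat.succ_le_succ h2)
      omega
    have hK10 : 0 < K1 := by omega
    obtain ⟨s, hs⟩ : ∃ s, s = a / (2 * K1 ^ 2) := ⟨_, rfl⟩
    obtain ⟨κ, hκ⟩ : ∃ κ, κ = n / (8 * t * K1) := ⟨_, rfl⟩
    have hs1 : (K + 1) * (K + 1) * (2 * s) ≤ a := by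
      have h1 : (K + 1) * (K + 1) ≤ K1 ^ 2 := by
        rw [pow_two]; exact Nat.mul_le_mul hKK1 hKK1
      have h2 : 2 * K1 ^ 2 * s ≤ a := by rw [hs]; exact Nat.mul_div_le a _
      calc (K + 1) * (K + 1) * (2 * s) ≤ K1 ^ 2 * (2 * s) := Nat.mul_le_mul_right _ h1
        _ = 2 * K1 ^ 2 * s := by ring
        _ ≤ a := h2
    obtain ⟨B, hB1, hB2⟩ := core R n a s κ K hρ hγ ha1 hK hs1
    refine ⟨B, hB1, ?_⟩
    have hbc := bad_count R s κ
    have hκ1 : 8 * t * K1 * κ ≤ n := by rw [hκ]; exact Nat.mul_div_le n _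
    have hκ2 : n < (κ + 1) * (8 * t * K1) := by
      rw [hκ]; exact lt_div_succ_mul n _ (by positivity)
    have hs2 : a < (s + 1) * (2 * K1 ^ 2) := by
      rw [hs]; exact lt_div_succ_mul a _ (by positivity)
    rw [hP] at hN
    have hbad := arith_bad n t d K1 a s κ _ _ hn2 hκ2 hs2 hbc hN
    exact arith_final n t K K1 κ a _ _ hn0 hbad (by omega) hκ1 (hd ▸ hda) hB2

end Vale.Agent.Lib.P037
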