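import Mathlib
import Vale.Agent.Lib.P037.Defs
import Vale.Agent.Lib.P037.Numeric

/-!
# P037, part 7: the real form, and the symmetries
-/

namespace Vale.Agent.Lib.P037

open Finset

theorem mem_copies {k n : ℕ} {H : Fin k → Fin k → Bool} {A : Fin n → Fin n → Bool}
    {p : (Fin k → Fin n) × (Fin k → Fin n)} :
    p ∈ copies H A ↔ StrictMono p.1 ∧ StrictMono p.2 ∧ ∀ i j, A (p.1 i) (p.2 j) = H i j := by
  unfold copies
  simp

section transform

variable (σ τ : ∀ m, Fin m → Fin m) (β : Bool → Bool)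

/-- the transformed matrix -/
def Tr {m : ℕ} (M : Fin m → Fin m → Bool) : Fin m → Fin m → Bool :=
  fun i j => β (M (σ m i) (τ m j))

variable (hσ : ∀ m x, σ m (σ m x) = x) (hτ : ∀ m x, τ m (τ m x) = x) (hβ : ∀ b, β (β b) = b)
  (hσm : ∀ m n (p : Fin m → Fin n), StrictMono p → StrictMono (fun i => σ n (p (σ m i))))
  (hτm : ∀ m n (p : Fin m → Fin n), StrictMono p → StrictMono (fun i => τ n (p (τ m i))))

include hσ hτ hβ in
theorem Tr_Tr {m : ℕ} (M : Fin m → Fin m → Bool) : Tr σ τ β (Tr σ τ β M) = M := by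
  funext i j
  simp [Tr, hσ, hτ, hβ]

include hσ hτ hβ hσm hτm in
theorem copies_Tr_le {k n : ℕ} (H : Fin k → Fin k → Bool) (A : Fin n → Fin n → Bool) :
    (copies (Tr σ τ β H) (Tr σ τ β A)).card ≤ (copies H A).card := by
  have hβi : Function.Injective β := fun a b h => by
    have := congrArg β h
    rwa [hβ, hβ] at this
  apply Finset.card_le_card_of_injOn
    (fun p => ((fun i => σ n (p.1 (σ k i))), (fun j => τ n (p.2 (τ k j)))))
  · intro p hp
    have hp' := mem_copies.mp (Finset.mem_coe.mp hp)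
    refine Finset.mem_coe.mpr (mem_copies.mpr ⟨hσm _ _ _ hp'.1, hτm _ _ _ hp'.2.1, ?_⟩)
    intro i j
    have := hp'.2.2 (σ k i) (τ k j)
    simp only [Tr, hσ, hτ] at this
    exact hβi this
  · intro p _ q _ hpq
    simp only [Prod.mk.injEq] at hpq
    have h1 : p.1 = q.1 := by
      funext i
      have := congrFun hpq.1 (σ k i)
      simp only [hσ] at this
      have h2 := congrArg (σ n) this
      rwa [hσ, hσ] at h2
    have h2 : p.2 = q.2 := by
      funext i
      have := congrFun hpq.2 (τ k i)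
      simp only [hτ] at this
      have h2 := congrArg (τ n) this
      rwa [hτ, hτ] at h2
    exact Prod.ext h1 h2

include hσ hτ hβ in
theorem hamming_Tr_le {n : ℕ} (A B : Fin n → Fin n → Bool) :
    hamming A (Tr σ τ β B) ≤ hamming (Tr σ τ β A) B := by
  unfold hamming
  apply Finset.card_le_card_of_injOn (fun p => (σ n p.1, τ n p.2))
  · intro p hp
    have hp' := (Finset.mem_filter.mp (Finset.mem_coe.mp hp)).2
    refine Finset.mem_coe.mpr (Finset.mem_filter.mpr ⟨Finset.mem_univ _, ?_⟩)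
    simp only [Tr, hσ, hτ] at hp' ⊢
    intro h
    apply hp'
    rw [← h, hβ]
  · intro p _ q _ hpq
    simp only [Prod.mk.injEq] at hpq
    have h1 := congrArg (σ n) hpq.1
    have h2 := congrArg (τ n) hpq.2
    rw [hσ, hσ] at h1
    rw [hτ, hτ] at h2
    exact Prod.ext h1 h2

include hσ hτ hβ hσm hτm in
theorem PolyRemoval.transform {k : ℕ} (H : Fin k → Fin k → Bool) (h : PolyRemoval H) :
    PolyRemoval (Tr σ τ β H) := by
  obtain ⟨c, hc, C, hC, hmain⟩ := h
  refine ⟨c, hc, C, hC, ?_⟩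
  intro n ε A hε0 hε1 hfar
  have h1 := hmain n ε (Tr σ τ β A) hε0 hε1 ?_
  · refine h1.trans ?_
    have h2 := copies_Tr_le σ τ β hσ hτ hβ hσm hτm (Tr σ τ β H) A
    rw [Tr_Tr σ τ β hσ hτ hβ] at h2
    exact_mod_cast h2
  · intro B hB
    have h2 := copies_Tr_le σ τ β hσ hτ hβ hσm hτm H B
    rw [hB, Finset.card_empty, Nat.le_zero, Finset.card_eq_zero] at h2
    refine (hfar _ h2).trans ?_
    exact_mod_cast hamming_Tr_le σ τ β hσ hτ hβ A B

end transform

/-- the `2 × 2` pattern all of whose entries equal `v` except the entry `(i0, j0)` -/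
def oddPattern (i0 j0 : Fin 2) (v : Bool) : Fin 2 → Fin 2 → Bool :=
  fun i j => if i = i0 ∧ j = j0 then !v else v

/-- row sets of a matrix -/
def rowSet {n : ℕ} (A : Fin n → Fin n → Bool) (r : Fin n) : Finset (Fin n) :=
  Finset.univ.filter (fun c => A r c = true)

theorem strictMono_pair {n : ℕ} {a b : Fin n} (h : a < b) : StrictMono ![a, b] := by
  intro i j hij
  fin_cases i <;> fin_cases j <;> simp_all

theorem Ncop_le_copies {n : ℕ} (A : Fin n → Fin n → Bool) :
    Ncop (rowSet A) ≤ (copies (oddPattern 1 1 true) A).card := by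
  classical
  set S : Finset (Σ _ : Fin n × Fin n, Fin n × Fin n) :=
    (Finset.univ : Finset (Fin n × Fin n)).sigma
      (fun p => if p.1 < p.2 then violSet (rowSet A p.1) (rowSet A p.2) else ∅) with hS
  have hcard : S.card = Ncop (rowSet A) := by
    rw [hS, Finset.card_sigma, Fintype.sum_prod_type]
    unfold Ncop V
    apply Finset.sum_congr rfl
    intro r _
    apply Finset.sum_congr rfl
    intro r' _
    split_ifs <;> simp
  rw [← hcard]
  apply Finset.card_le_card_of_injOn (fun q => (![q.1.1, q.1.2], ![q.2.1, q.2.2]))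
  · intro q hq
    have hq' := (Finset.mem_sigma.mp (Finset.mem_coe.mp hq)).2
    by_cases hlt : q.1.1 < q.1.2
    · rw [if_pos hlt, mem_violSet] at hq'
      obtain ⟨hc, h1, h2, h3, h4⟩ := hq'
      simp only [rowSet, Finset.mem_filter, Finset.mem_univ, true_and, Bool.not_eq_true] at h1 h2 h3 h4
      refine Finset.mem_coe.mpr (mem_copies.mpr ⟨strictMono_pair hlt, strictMono_pair hc, ?_⟩)
      intro i j
      fin_cases i <;> fin_cases j <;> simp [oddPattern, h1, h2, h3, h4]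
    · rw [if_neg hlt] at hq'
      exact absurd hq' (Finset.notMem_empty _)
  · intro q _ q' _ h
    simp only [Prod.mk.injEq] at h
    have a1 := congrFun h.1 0
    have a2 := congrFun h.1 1
    have a3 := congrFun h.2 0
    have a4 := congrFun h.2 1
    simp only [Matrix.cons_val_zero, Matrix.cons_val_one] at a1 a2 a3 a4
    obtain ⟨⟨x1, x2⟩, ⟨x3, x4⟩⟩ := q
    obtain ⟨⟨y1, y2⟩, ⟨y3, y4⟩⟩ := q'
    simp only at a1 a2 a3 a4
    subst a1 a2 a3 a4
    rfl

theorem polyP_le (t : ℕ) (ht : 1 ≤ t) : polyP t ≤ (1024 * 56 ^ 2 * 6386 ^ 5) * t ^ 14 := by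
  unfold polyP
  have h1 : 2 + (2 * (56 * t)) * (56 * t + 1) ≤ 6386 * t ^ 2 := by nlinarith
  calc 1024 * t ^ 2 * (56 * t) ^ 2 * (2 + (2 * (56 * t)) * (56 * t + 1)) ^ 5
      ≤ 1024 * t ^ 2 * (56 * t) ^ 2 * (6386 * t ^ 2) ^ 5 :=
        Nat.mul_le_mul_left _ (Nat.pow_le_pow_left h1 5)
    _ = (1024 * 56 ^ 2 * 6386 ^ 5) * t ^ 14 := by ring

theorem hamming_le_sum {n : ℕ} (A : Fin n → Fin n → Bool) (B : Fin n → Finset (Fin n)) :
    hamming A (fun r c => decide (c ∈ B r)) ≤ ∑ r, sd (B r) (rowSet A r) := by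
  classical
  have h1 : hamming A (fun r c => decide (c ∈ B r)) =
      ∑ r, (Finset.univ.filter (fun c => A r c ≠ decide (c ∈ B r))).card := by
    unfold hamming
    rw [Finset.card_filter, Fintype.sum_prod_type]
    simp [Finset.card_filter]
  rw [h1]
  apply Finset.sum_le_sum
  intro r _
  unfold sd
  refine le_trans (Finset.card_le_card ?_) (Finset.card_union_le _ _)
  intro c hc
  have hc' := (Finset.mem_filter.mp hc).2
  simp only [Finset.mem_union, Finset.mem_sdiff, rowSet, Finset.mem_filter, Finset.mem_univ,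
    true_and]
  by_cases h2 : c ∈ B r
  · left
    refine ⟨h2, ?_⟩
    intro h3
    apply hc'
    simp [h2, h3]
  · right
    refine ⟨?_, h2⟩
    by_contra h3
    apply hc'
    simp only [Bool.not_eq_true] at h3
    simp [h2, h3]

theorem copies_empty_of_free {n : ℕ} (B : Fin n → Finset (Fin n))
    (hB : ∀ r1 r2, r1 < r2 → ∀ c1 c2, c1 < c2 → c1 ∈ B r1 → c2 ∈ B r1 → c1 ∈ B r2 → c2 ∈ B r2) :
    copies (oddPattern 1 1 true) (fun r c => decide (c ∈ B r)) = ∅ := by
  rw [Finset.eq_empty_iff_forall_notMem]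
  intro p hp
  obtain ⟨h1, h2, h3⟩ := mem_copies.mp hp
  have a00 := h3 0 0
  have a01 := h3 0 1
  have a10 := h3 1 0
  have a11 := h3 1 1
  simp [oddPattern] at a00 a01 a10 a11
  exact a11 (hB _ _ (h1 (by decide : (0 : Fin 2) < 1)) _ _ (h2 (by decide : (0 : Fin 2) < 1))
    a00 a01 a10)

theorem base : PolyRemoval (oddPattern 1 1 true) := by
  obtain ⟨c0, hc0⟩ : ∃ c0 : ℝ, c0 = 1024 * 56 ^ 2 * 6386 ^ 5 := ⟨_, rfl⟩
  have hc0pos : 0 < c0 := by rw [hc0]; positivity
  refine ⟨1 / (c0 * 2 ^ 14), by positivity, 14, by norm_num, ?_⟩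
  intro n ε A hε0 hε1 hfar
  by_contra hcon
  push Not at hcon
  obtain ⟨t, ht⟩ : ∃ t : ℕ, t = ⌈1 / ε⌉₊ := ⟨_, rfl⟩
  have ht1 : 1 ≤ t := by
    rw [ht]; exact Nat.ceil_pos.mpr (by positivity)
  have htl : 1 / ε ≤ (t : ℝ) := by rw [ht]; exact Nat.le_ceil _
  have htu : (t : ℝ) < 1 / ε + 1 := by rw [ht]; exact Nat.ceil_lt_add_one (by positivity)
  have htpos : (0 : ℝ) < t := by exact_mod_cast ht1
  have hεt1 : 1 ≤ ε * t := by
    have := mul_le_mul_of_nonneg_left htl hε0.le
    rwa [mul_one_div_cancel hε0.ne'] at this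
  have hεt2 : ε * t ≤ 2 := by
    have := mul_lt_mul_of_pos_left htu hε0
    rw [mul_add, mul_one_div_cancel hε0.ne'] at this
    linarith
  have hNM : (Ncop (rowSet A) : ℝ) ≤ ((copies (oddPattern 1 1 true) A).card : ℝ) := by
    exact_mod_cast Ncop_le_copies A
  have hP : (polyP t : ℝ) ≤ c0 * (t : ℝ) ^ 14 := by
    rw [hc0]
    exact_mod_cast polyP_le t ht1
  have hN : Ncop (rowSet A) * polyP t < n ^ 4 := by
    have h3 : (Ncop (rowSet A) : ℝ) * (polyP t : ℝ)
        ≤ ((copies (oddPattern 1 1 true) A).card : ℝ) * (c0 * (t : ℝ) ^ 14) :=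
      mul_le_mul hNM hP (by positivity) (by positivity)
    have h4 := mul_lt_mul_of_pos_right hcon (show 0 < c0 * (t : ℝ) ^ 14 by positivity)
    have h5 : 1 / (c0 * 2 ^ 14) * ε ^ 14 * (n : ℝ) ^ (2 * 2) * (c0 * (t : ℝ) ^ 14)
        = (ε * t) ^ 14 / 2 ^ 14 * (n : ℝ) ^ 4 := by
      field_simp
    have h6 : (ε * t) ^ 14 / 2 ^ 14 * (n : ℝ) ^ 4 ≤ (n : ℝ) ^ 4 := by
      have h7 : (ε * t) ^ 14 ≤ 2 ^ 14 := pow_le_pow_left₀ (by positivity) hεt2 14
      have h8 : (ε * t) ^ 14 / 2 ^ 14 ≤ 1 := by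
        rw [div_le_one (by positivity)]; exact h7
      have h9 : (0 : ℝ) ≤ (n : ℝ) ^ 4 := by positivity
      nlinarith
    have h10 : ((Ncop (rowSet A) * polyP t : ℕ) : ℝ) < ((n ^ 4 : ℕ) : ℝ) := by
      push_cast
      linarith
    exact_mod_cast h10
  obtain ⟨B, hB1, hB2⟩ := int_removal (rowSet A) n t ht1 (by simp) (by simp) hN
  have h1 := hfar _ (copies_empty_of_free B hB1)
  have h2 : (hamming A (fun r c => decide (c ∈ B r)) : ℝ) ≤ ((∑ r, sd (B r) (rowSet A r) : ℕ) : ℝ) := by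
    exact_mod_cast hamming_le_sum A B
  have h3 : ((t * ∑ r, sd (B r) (rowSet A r) : ℕ) : ℝ) < ((n ^ 2 : ℕ) : ℝ) := by
    exact_mod_cast hB2
  push_cast at h3 h2
  have h4 : ε * (n : ℝ) ^ 2 ≤ ∑ r, (sd (B r) (rowSet A r) : ℝ) := h1.trans h2
  have h5 := mul_le_mul_of_nonneg_left h4 htpos.le
  have h6 : (0 : ℝ) ≤ (n : ℝ) ^ 2 := by positivity
  nlinarith

/-- identity or reversal -/
def sel (b : Bool) : ∀ m, Fin m → Fin m := fun _ x => if b then x else Fin.rev x

theorem sel_sel (b : Bool) (m : ℕ) (x : Fin m) : sel b m (sel b m x) = x := by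
  cases b <;> simp [sel]

theorem sel_mono (b : Bool) (m n : ℕ) (p : Fin m → Fin n) (hp : StrictMono p) :
    StrictMono (fun i => sel b n (p (sel b m i))) := by
  cases b
  · intro i j hij
    simp only [sel, Bool.false_eq_true, if_false]
    exact Fin.rev_lt_rev.mpr (hp (Fin.rev_lt_rev.mpr hij))
  · intro i j hij
    simp only [sel, if_true]
    exact hp hij

theorem all_odd (i0 j0 : Fin 2) (v : Bool) : PolyRemoval (oddPattern i0 j0 v) := by
  have h := PolyRemoval.transform (sel (decide (i0 = 1))) (sel (decide (j0 = 1)))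
    (fun b => if v then b else !b) (sel_sel _) (sel_sel _) (by cases v <;> simp)
    (sel_mono _) (sel_mono _) _ base
  have heq : Tr (sel (decide (i0 = 1))) (sel (decide (j0 = 1))) (fun b => if v then b else !b)
      (oddPattern 1 1 true) = oddPattern i0 j0 v := by
    funext i j
    fin_cases i0 <;> fin_cases j0 <;> cases v <;> fin_cases i <;> fin_cases j <;> rfl
  rwa [heq] at h

end Vale.Agent.Lib.P037
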