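import Mathlib

/-!
# P037, part 2: ranks in finite linear orders and the cover lemma
-/

namespace Vale.Agent.Lib.P037

open Finset

variable {γ : Type*} [LinearOrder γ]

/-- few elements have small rank from the top -/
theorem card_top_le (Y : Finset γ) (s : ℕ) :
    (Y.filter (fun y => (Y.filter (fun z => y < z)).card < s)).card ≤ s := by
  have h := Finset.card_le_card_of_injOn (s := Y.filter (fun y => (Y.filter (fun z => y < z)).card < s))
    (t := Finset.range s) (fun y => (Y.filter (fun z => y < z)).card) ?_ ?_
  · simpa using h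
  · intro y hy
    have := (Finset.mem_filter.mp (Finset.mem_coe.mp hy)).2
    simpa using this
  · intro y1 h1 y2 h2 h12
    have hy1 := (Finset.mem_filter.mp (Finset.mem_coe.mp h1)).1
    have hy2 := (Finset.mem_filter.mp (Finset.mem_coe.mp h2)).1
    by_contra hne
    have key : ∀ a b : γ, a ∈ Y → b ∈ Y → a < b →
        (Y.filter (fun z => b < z)).card < (Y.filter (fun z => a < z)).card := by
      intro a b _ hb hab
      apply Finset.card_lt_card
      refine ⟨?_, ?_⟩
      · intro z hz
        rw [Finset.mem_filter] at hz ⊢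
        exact ⟨hz.1, hab.trans hz.2⟩
      · intro hsub
        have : b ∈ Y.filter (fun z => b < z) := hsub (Finset.mem_filter.mpr ⟨hb, hab⟩)
        exact lt_irrefl _ (Finset.mem_filter.mp this).2
    rcases lt_or_gt_of_ne hne with h | h
    · have := key _ _ hy1 hy2 h
      simp only at h12
      omega
    · have := key _ _ hy2 hy1 h
      simp only at h12
      omega

theorem rank_lt_of_lt {A : Finset γ} {a b : γ} (ha : a ∈ A) (hab : a < b) :
    (A.filter (fun z => z < a)).card < (A.filter (fun z => z < b)).card := by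
  apply Finset.card_lt_card
  refine ⟨?_, ?_⟩
  · intro z hz
    rw [Finset.mem_filter] at hz ⊢
    exact ⟨hz.1, hz.2.trans hab⟩
  · intro hsub
    have : a ∈ A.filter (fun z => z < a) := hsub (Finset.mem_filter.mpr ⟨ha, hab⟩)
    exact lt_irrefl _ (Finset.mem_filter.mp this).2

theorem rank_injOn (A : Finset γ) :
    Set.InjOn (fun y => (A.filter (fun z => z < y)).card) (A : Set γ) := by
  intro y1 h1 y2 h2 h12
  by_contra hne
  rcases lt_or_gt_of_ne hne with h | h
  · have := rank_lt_of_lt (Finset.mem_coe.mp h1) h
    simp only at h12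
    omega
  · have := rank_lt_of_lt (Finset.mem_coe.mp h2) h
    simp only at h12
    omega

/-- the head of `A`: the elements of rank `< a` from the bottom -/
def Head (A : Finset γ) (a : ℕ) : Finset γ :=
  A.filter (fun y => (A.filter (fun z => z < y)).card < a)

theorem Head_subset (A : Finset γ) (a : ℕ) : Head A a ⊆ A := Finset.filter_subset _ _

theorem le_card_Head (A : Finset γ) (a : ℕ) (h : a ≤ A.card) : a ≤ (Head A a).card := by
  have hsplit := Finset.card_filter_add_card_filter_not (s := A)
    (fun y => (A.filter (fun z => z < y)).card < a)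
  have hc : (A.filter (fun y => ¬ (A.filter (fun z => z < y)).card < a)).card ≤ A.card - a := by
    have h2 := Finset.card_le_card_of_injOn
      (s := A.filter (fun y => ¬ (A.filter (fun z => z < y)).card < a))
      (t := Finset.Ico a A.card) (fun y => (A.filter (fun z => z < y)).card) ?_ ?_
    · simpa using h2
    · intro y hy
      have hy' := Finset.mem_filter.mp (Finset.mem_coe.mp hy)
      have h3 : (A.filter (fun z => z < y)).card < A.card := by
        apply Finset.card_lt_card
        refine ⟨Finset.filter_subset _ _, ?_⟩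
        intro hsub
        exact lt_irrefl _ (Finset.mem_filter.mp (hsub hy'.1)).2
      have h4 := hy'.2
      simp only [Finset.coe_Ico, Set.mem_Ico]
      omega
    · exact (rank_injOn A).mono (fun y hy => (Finset.mem_filter.mp (Finset.mem_coe.mp hy)).1)
  unfold Head
  omega

/-- the set of violating column pairs of an ordered pair of rows with column sets `R`, `R'` -/
def violSet (R R' : Finset γ) : Finset (γ × γ) :=
  ((R ∩ R') ×ˢ (R \ R')).filter (fun p => p.1 < p.2)

theorem mem_violSet {R R' : Finset γ} {p : γ × γ} :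
    p ∈ violSet R R' ↔ p.1 < p.2 ∧ p.1 ∈ R ∧ p.2 ∈ R ∧ p.1 ∈ R' ∧ p.2 ∉ R' := by
  simp only [violSet, Finset.mem_filter, Finset.mem_product, Finset.mem_inter, Finset.mem_sdiff]
  tauto

/-- a pair of rows with few violating column pairs has a small set of columns meeting all of
them -/
theorem exists_cover (R R' : Finset γ) (s : ℕ) (h : (violSet R R').card ≤ s * (s + 1)) :
    ∃ D : Finset γ, D.card ≤ 2 * s ∧
      ∀ c1 c2, c1 < c2 → c1 ∈ R → c2 ∈ R → c1 ∈ R' → c2 ∉ R' → c1 ∈ D ∨ c2 ∈ D := by
  classical
  set X := R ∩ R' with hX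
  set Y := R \ R' with hY
  set Ytop := Y.filter (fun y => (Y.filter (fun z => y < z)).card < s) with hYtop
  set Xbad := X.filter (fun x => ∃ y ∈ Y, y ∉ Ytop ∧ x < y) with hXbad
  have h1 : Ytop.card ≤ s := card_top_le Y s
  have h2 : Xbad.card * (s + 1) ≤ (violSet R R').card := by
    have hsub : Xbad.sigma (fun x => Y.filter (fun z => x < z)) ⊆
        (violSet R R').map ⟨fun p => (⟨p.1, p.2⟩ : Σ _ : γ, γ), by
          intro p q hpq
          simp only [Sigma.mk.injEq, heq_eq_eq] at hpq
          exact Prod.ext hpq.1 hpq.2⟩ := by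
      intro p hp
      rw [Finset.mem_sigma] at hp
      rw [Finset.mem_map]
      refine ⟨(p.1, p.2), ?_, rfl⟩
      have hp1 := Finset.mem_filter.mp hp.1
      have hp2 := Finset.mem_filter.mp hp.2
      simp only [violSet, Finset.mem_filter, Finset.mem_product]
      exact ⟨⟨hp1.1, hp2.1⟩, hp2.2⟩
    have hcard := Finset.card_le_card hsub
    rw [Finset.card_map, Finset.card_sigma] at hcard
    refine le_trans ?_ hcard
    rw [← smul_eq_mul]
    apply Finset.card_nsmul_le_sum
    intro x hx
    obtain ⟨_, y, hyY, hyT, hxy⟩ := Finset.mem_filter.mp hx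
    have h3 : s ≤ (Y.filter (fun z => y < z)).card := by
      by_contra hlt
      exact hyT (Finset.mem_filter.mpr ⟨hyY, not_le.mp hlt⟩)
    have h4 : insert y (Y.filter (fun z => y < z)) ⊆ Y.filter (fun z => x < z) := by
      intro z hz
      rcases Finset.mem_insert.mp hz with rfl | hz
      · exact Finset.mem_filter.mpr ⟨hyY, hxy⟩
      · have := Finset.mem_filter.mp hz
        exact Finset.mem_filter.mpr ⟨this.1, hxy.trans this.2⟩
    have h5 := Finset.card_le_card h4
    rw [Finset.card_insert_of_notMem (by simp)] at h5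
    omega
  have h3 : Xbad.card ≤ s := by
    have : Xbad.card * (s + 1) ≤ s * (s + 1) := h2.trans h
    exact Nat.le_of_mul_le_mul_right this (Nat.succ_pos s)
  refine ⟨Ytop ∪ Xbad, ?_, ?_⟩
  · have := Finset.card_union_le Ytop Xbad
    omega
  · intro c1 c2 h12 hc1 hc2 hc1' hc2'
    by_cases hT : c2 ∈ Ytop
    · exact Or.inr (Finset.mem_union_left _ hT)
    · refine Or.inl (Finset.mem_union_right _ ?_)
      refine Finset.mem_filter.mpr ⟨Finset.mem_inter.mpr ⟨hc1, hc1'⟩, c2, ?_, hT, h12⟩
      exact Finset.mem_sdiff.mpr ⟨hc2, hc2'⟩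

end Vale.Agent.Lib.P037
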