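import Mathlib
import Vale.Agent.Lib.P037.Cover

/-!
# P037, part 3: the exact packing lemma
-/

namespace Vale.Agent.Lib.P037

open Finset

variable {ρ γ : Type*} [LinearOrder ρ] [LinearOrder γ]

/-- Hamming distance of two column sets -/
def sd (A B : Finset γ) : ℕ := (A \ B).card + (B \ A).card

theorem sd_comm (A B : Finset γ) : sd A B = sd B A := by
  unfold sd; omega

theorem sd_self (A : Finset γ) : sd A A = 0 := by
  simp [sd]

theorem card_eq_inter_add (A B : Finset γ) : A.card = (A ∩ B).card + (A \ B).card :=
  (Finset.card_inter_add_card_sdiff A B).symm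

/-- key step: if a later row meets the head of an earlier one, it is much larger -/
theorem head_step {A A' : Finset γ} {a : ℕ}
    (hG : ∀ x y, x < y → x ∈ A → y ∈ A → x ∈ A' → y ∈ A')
    (hfar : 4 * a ≤ sd A A') {x : γ} (hx : x ∈ Head A a) (hx' : x ∈ A') :
    A.card + 2 * a < A'.card := by
  have hxA : x ∈ A := Head_subset A a hx
  have hrank : (A.filter (fun z => z < x)).card < a := (Finset.mem_filter.mp hx).2
  have hsub : A \ A' ⊆ A.filter (fun z => z < x) := by
    intro y hy
    obtain ⟨hyA, hyA'⟩ := Finset.mem_sdiff.mp hy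
    refine Finset.mem_filter.mpr ⟨hyA, ?_⟩
    by_contra hlt
    rcases (not_lt.mp hlt).lt_or_eq with h | h
    · exact hyA' (hG x y h hxA hyA hx')
    · exact hyA' (h ▸ hx')
  have h1 := Finset.card_le_card hsub
  have h2 := card_eq_inter_add A A'
  have h3 := card_eq_inter_add A' A
  rw [Finset.inter_comm] at h3
  unfold sd at hfar
  omega

theorem exact_packing [Fintype γ] (P : Finset ρ) (A : ρ → Finset γ) (a : ℕ) (ha : 1 ≤ a)
    (hG : ∀ q ∈ P, ∀ q' ∈ P, q < q' → ∀ x y, x < y → x ∈ A q → y ∈ A q → x ∈ A q' → y ∈ A q')
    (hfar : ∀ q ∈ P, ∀ q' ∈ P, q ≠ q' → 4 * a ≤ sd (A q) (A q')) :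
    P.card ≤ 1 + (Fintype.card γ / a) * (Fintype.card γ / (2 * a) + 1) := by
  classical
  set n := Fintype.card γ with hn
  have hsplit := Finset.card_filter_add_card_filter_not (s := P) (fun q => a ≤ (A q).card)
  have h0 : (P.filter (fun q => ¬ a ≤ (A q).card)).card ≤ 1 := by
    rw [Finset.card_le_one]
    intro q hq q' hq'
    by_contra hne
    obtain ⟨hqP, hqa⟩ := Finset.mem_filter.mp hq
    obtain ⟨hqP', hqa'⟩ := Finset.mem_filter.mp hq'
    have h1 := hfar q hqP q' hqP' hne
    have h2 : (A q \ A q').card ≤ (A q).card := Finset.card_le_card Finset.sdiff_subset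
    have h3 : (A q' \ A q).card ≤ (A q').card := Finset.card_le_card Finset.sdiff_subset
    unfold sd at h1
    omega
  have h1 : (P.filter (fun q => a ≤ (A q).card)).card ≤ (n / a) * (n / (2 * a) + 1) := by
    set P1 := P.filter (fun q => a ≤ (A q).card) with hP1
    have himg : (P1.image (fun q => (A q).card / (2 * a))).card ≤ n / (2 * a) + 1 := by
      have : P1.image (fun q => (A q).card / (2 * a)) ⊆ Finset.range (n / (2 * a) + 1) := by
        intro b hb
        obtain ⟨q, _, rfl⟩ := Finset.mem_image.mp hb
        rw [Finset.mem_range]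
        have : (A q).card ≤ n := Finset.card_le_univ _
        have := Nat.div_le_div_right (c := 2 * a) this
        omega
      simpa using Finset.card_le_card this
    have hfib : ∀ b ∈ P1.image (fun q => (A q).card / (2 * a)),
        (P1.filter (fun q => (A q).card / (2 * a) = b)).card ≤ n / a := by
      intro b _
      set S := P1.filter (fun q => (A q).card / (2 * a) = b) with hS
      have hdisj : (S : Set ρ).PairwiseDisjoint (fun q => Head (A q) a) := by
        have key : ∀ q ∈ S, ∀ q' ∈ S, q < q' → Disjoint (Head (A q) a) (Head (A q') a) := by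
          intro q hq q' hq' hlt
          rw [Finset.disjoint_left]
          intro x hx hx'
          obtain ⟨hq1, hqb⟩ := Finset.mem_filter.mp hq
          obtain ⟨hq1', hqb'⟩ := Finset.mem_filter.mp hq'
          have hqP := (Finset.mem_filter.mp hq1).1
          have hqP' := (Finset.mem_filter.mp hq1').1
          have h2 := head_step (hG q hqP q' hqP' hlt) (hfar q hqP q' hqP' hlt.ne) hx
            (Head_subset _ _ hx')
          have hpos : 0 < 2 * a := by omega
          have h3 : (A q').card < (b + 1) * (2 * a) := by
            have := Nat.lt_succ_iff.mpr (le_of_eq hqb')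
            exact (Nat.div_lt_iff_lt_mul hpos).mp this
          have h4 : b * (2 * a) ≤ (A q).card := by
            exact (Nat.le_div_iff_mul_le hpos).mp (le_of_eq hqb.symm)
          nlinarith
        intro q hq q' hq' hne
        rcases lt_or_gt_of_ne hne with h | h
        · exact key q hq q' hq' h
        · exact (key q' hq' q hq h).symm
      have hcard := Finset.card_biUnion (s := S) (t := fun q => Head (A q) a)
        (fun q hq q' hq' hne => hdisj hq hq' hne)
      have hle : (S.biUnion (fun q => Head (A q) a)).card ≤ n := Finset.card_le_univ _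
      have hsum : S.card * a ≤ ∑ q ∈ S, (Head (A q) a).card := by
        rw [← smul_eq_mul]
        apply Finset.card_nsmul_le_sum
        intro q hq
        have hq1 := (Finset.mem_filter.mp hq).1
        exact le_card_Head _ _ (Finset.mem_filter.mp hq1).2
      rw [Nat.le_div_iff_mul_le (by omega)]
      omega
    have := Finset.card_le_mul_card_image P1 (n / a) hfib
    calc P1.card ≤ n / a * (P1.image (fun q => (A q).card / (2 * a))).card := this
      _ ≤ n / a * (n / (2 * a) + 1) := Nat.mul_le_mul_left _ himg
  omega

end Vale.Agent.Lib.P037
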