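import Mathlib
import Vale.Agent.Lib.P037.Cover
import Vale.Agent.Lib.P037.Packing
import Vale.Agent.Lib.P037.Core

/-!
# P037: the assembly, generic in the 2 x 2 pattern

A 2 x 2 pattern is described by two operations `X`, `Y` on pairs of column sets: a copy on the
ordered pair of rows with column sets `R`, `R'` is a pair of columns `c1 < c2` with
`c1 ∈ X R R'` and `c2 ∈ Y R R'`.
-/

namespace Vale.Agent.Lib.P037

open Finset

set_option linter.unusedSectionVars false

section cover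

variable {γ : Type*} [LinearOrder γ]

/-- the pairs `x < y` with `x ∈ X`, `y ∈ Y` -/
def pairSet (X Y : Finset γ) : Finset (γ × γ) := (X ×ˢ Y).filter (fun p => p.1 < p.2)

theorem mem_pairSet {X Y : Finset γ} {p : γ × γ} :
    p ∈ pairSet X Y ↔ p.1 ∈ X ∧ p.2 ∈ Y ∧ p.1 < p.2 := by
  simp only [pairSet, Finset.mem_filter, Finset.mem_product]
  tauto

theorem exists_cover_gen (X Y : Finset γ) (s : ℕ) (h : (pairSet X Y).card ≤ s * (s + 1)) :
    ∃ D : Finset γ, D.card ≤ 2 * s ∧ ∀ c1 c2, c1 < c2 → c1 ∈ X → c2 ∈ Y → c1 ∈ D ∨ c2 ∈ D := by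
  classical
  set Ytop := Y.filter (fun y => (Y.filter (fun z => y < z)).card < s) with hYtop
  set Xbad := X.filter (fun x => ∃ y ∈ Y, y ∉ Ytop ∧ x < y) with hXbad
  have h1 : Ytop.card ≤ s := card_top_le Y s
  have h2 : Xbad.card * (s + 1) ≤ (pairSet X Y).card := by
    have hsub : Xbad.sigma (fun x => Y.filter (fun z => x < z)) ⊆
        (pairSet X Y).map ⟨fun p => (⟨p.1, p.2⟩ : Σ _ : γ, γ), by
          intro p q hpq
          simp only [Sigma.mk.injEq, heq_eq_eq] at hpq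
          exact Prod.ext hpq.1 hpq.2⟩ := by
      intro p hp
      rw [Finset.mem_sigma] at hp
      rw [Finset.mem_map]
      refine ⟨(p.1, p.2), ?_, rfl⟩
      have hp1 := Finset.mem_filter.mp hp.1
      have hp2 := Finset.mem_filter.mp hp.2
      exact mem_pairSet.mpr ⟨hp1.1, hp2.1, hp2.2⟩
    have hcard := Finset.card_le_card hsub
    rw [Finset.card_map, Finset.card_sigma] at hcard
    refine le_trans ?_ hcard
    rw [← smul_eq_mul]
    apply Finset.card_nsmul_le_sum
    intro x hx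
    obtain ⟨_, y, hyY, hyT, hxy⟩ := Finset.mem_filter.mp hx
    have h3 : s ≤ (Y.filter (fun z => y < z)).card := by
      by_contra hlt
      exact hyT (Finset.mem_filter.mpr ⟨hyY, not_le.mp hlt⟩)
    have h4 : insert y (Y.filter (fun z => y < z)) ⊆ Y.filter (fun z => x < z) := by
      intro z hz
      rcases Finset.mem_insert.mp hz with rfl | hz
      · exact Finset.mem_filter.mpr ⟨hyY, hxy⟩
      · have := Finset.mem_filter.mp hz
        exact Finset.mem_filter.mpr ⟨this.1, hxy.trans this.2⟩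
    have h5 := Finset.card_le_card h4
    rw [Finset.card_insert_of_notMem (by simp)] at h5
    omega
  have h3 : Xbad.card ≤ s := by
    have : Xbad.card * (s + 1) ≤ s * (s + 1) := h2.trans h
    exact Nat.le_of_mul_le_mul_right this (Nat.succ_pos s)
  refine ⟨Ytop ∪ Xbad, ?_, ?_⟩
  · have := Finset.card_union_le Ytop Xbad
    omega
  · intro c1 c2 h12 hc1 hc2
    by_cases hT : c2 ∈ Ytop
    · exact Or.inr (Finset.mem_union_left _ hT)
    · exact Or.inl (Finset.mem_union_right _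
        (Finset.mem_filter.mpr ⟨hc1, c2, hc2, hT, h12⟩))

end cover

variable {ρ γ : Type*} [LinearOrder ρ] [LinearOrder γ] [Fintype ρ] [Fintype γ]

variable (X Y : Finset γ → Finset γ → Finset γ)

/-- freeness of the family `A` on the rows of `P` -/
def FreeOn (P : Finset ρ) (A : ρ → Finset γ) : Prop :=
  ∀ q ∈ P, ∀ q' ∈ P, q < q' → ∀ c1 c2, c1 < c2 → c1 ∈ X (A q) (A q') → c2 ∈ Y (A q) (A q') → False

/-- number of copies on the ordered pair of rows `r < r'` (zero otherwise) -/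
def GV (R : ρ → Finset γ) (r r' : ρ) : ℕ :=
  if r < r' then (pairSet (X (R r) (R r')) (Y (R r) (R r'))).card else 0

/-- total number of copies -/
def GN (R : ρ → Finset γ) : ℕ := ∑ r, ∑ r', GV X Y R r r'

def gheavy (R : ρ → Finset γ) (s : ℕ) (r r' : ρ) : Prop :=
  s * (s + 1) < GV X Y R r r' + GV X Y R r' r

theorem gheavy_comm (R : ρ → Finset γ) (s : ℕ) (r r' : ρ) :
    gheavy X Y R s r r' ↔ gheavy X Y R s r' r := by
  unfold gheavy
  rw [add_comm (GV X Y R r r')]

open Classical in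
noncomputable def ghnb (R : ρ → Finset γ) (s : ℕ) (r : ρ) : Finset ρ :=
  Finset.univ.filter (fun r' => gheavy X Y R s r r')

def gbad (R : ρ → Finset γ) (s κ : ℕ) (r : ρ) : Prop := κ < (ghnb X Y R s r).card

open Classical in
noncomputable def gbadSet (R : ρ → Finset γ) (s κ : ℕ) : Finset ρ :=
  Finset.univ.filter (fun r => gbad X Y R s κ r)

theorem gbad_count (R : ρ → Finset γ) (s κ : ℕ) :
    (gbadSet X Y R s κ).card * ((κ + 1) * (s * (s + 1) + 1)) ≤ 2 * GN X Y R := by
  classical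
  have h1 : ∑ r, ∑ r', (GV X Y R r r' + GV X Y R r' r) = 2 * GN X Y R := by
    simp only [Finset.sum_add_distrib]
    rw [Finset.sum_comm (f := fun r r' => GV X Y R r' r)]
    unfold GN
    ring
  rw [← h1]
  calc (gbadSet X Y R s κ).card * ((κ + 1) * (s * (s + 1) + 1))
      ≤ ∑ r ∈ gbadSet X Y R s κ, ∑ r' ∈ ghnb X Y R s r, (GV X Y R r r' + GV X Y R r' r) := by
        rw [← smul_eq_mul]
        apply Finset.card_nsmul_le_sum
        intro r hr
        have hr' : κ < (ghnb X Y R s r).card := (Finset.mem_filter.mp hr).2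
        calc (κ + 1) * (s * (s + 1) + 1) ≤ (ghnb X Y R s r).card * (s * (s + 1) + 1) :=
              Nat.mul_le_mul_right _ hr'
          _ ≤ ∑ r' ∈ ghnb X Y R s r, (GV X Y R r r' + GV X Y R r' r) := by
              rw [← smul_eq_mul]
              apply Finset.card_nsmul_le_sum
              intro r' hr2
              exact (Finset.mem_filter.mp hr2).2
    _ ≤ ∑ r ∈ gbadSet X Y R s κ, ∑ r', (GV X Y R r r' + GV X Y R r' r) := by
        apply Finset.sum_le_sum
        intro r _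
        exact Finset.sum_le_sum_of_subset (Finset.subset_univ _)
    _ ≤ ∑ r, ∑ r', (GV X Y R r r' + GV X Y R r' r) :=
        Finset.sum_le_sum_of_subset (Finset.subset_univ _)

theorem glight_viol {R : ρ → Finset γ} {s : ℕ} {q q' : ρ} (hlt : q < q')
    (h : ¬ gheavy X Y R s q q') :
    (pairSet (X (R q) (R q')) (Y (R q) (R q'))).card ≤ s * (s + 1) := by
  unfold gheavy GV at h
  rw [if_pos hlt] at h
  omega

/-- the pattern only sees columns in which one of the two rows has a one -/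
def DelOK : Prop :=
  ∀ (R R' D : Finset γ) (c : γ),
    (c ∈ X (R \ D) (R' \ D) → c ∈ X R R' ∧ c ∉ D) ∧ (c ∈ Y (R \ D) (R' \ D) → c ∈ Y R R' ∧ c ∉ D)

theorem gexactify (hdel : DelOK X Y) (R : ρ → Finset γ) (s : ℕ) (P : Finset ρ)
    (hl : ∀ q ∈ P, ∀ q' ∈ P, q < q' → ¬ gheavy X Y R s q q') :
    ∃ D : Finset γ, D.card ≤ P.card * P.card * (2 * s) ∧ FreeOn X Y P (fun q => R q \ D) := by
  classical
  have h1 : ∀ p : ρ × ρ, ∃ D : Finset γ, D.card ≤ 2 * s ∧ (p.1 ∈ P → p.2 ∈ P → p.1 < p.2 →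
      ∀ c1 c2, c1 < c2 → c1 ∈ X (R p.1) (R p.2) → c2 ∈ Y (R p.1) (R p.2) →
        c1 ∈ D ∨ c2 ∈ D) := by
    intro p
    by_cases hp : p.1 ∈ P ∧ p.2 ∈ P ∧ p.1 < p.2
    · obtain ⟨D, hD1, hD2⟩ := exists_cover_gen (X (R p.1) (R p.2)) (Y (R p.1) (R p.2)) s
        (glight_viol X Y hp.2.2 (hl _ hp.1 _ hp.2.1 hp.2.2))
      exact ⟨D, hD1, fun _ _ _ => hD2⟩
    · exact ⟨∅, by simp, fun a b c => absurd ⟨a, b, c⟩ hp⟩
  choose Dp hDp1 hDp2 using h1
  refine ⟨(P ×ˢ P).biUnion Dp, ?_, ?_⟩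
  · have := Finset.card_biUnion_le_card_mul (P ×ˢ P) Dp (2 * s) (fun p _ => hDp1 p)
    rwa [Finset.card_product] at this
  · intro q hq q' hq' hlt c1 c2 hc h1 h2
    obtain ⟨h1a, h1b⟩ := (hdel _ _ _ c1).1 h1
    obtain ⟨h2a, h2b⟩ := (hdel _ _ _ c2).2 h2
    have hsub : Dp (q, q') ⊆ (P ×ˢ P).biUnion Dp :=
      Finset.subset_biUnion_of_mem Dp (Finset.mem_product.mpr ⟨hq, hq'⟩)
    rcases hDp2 (q, q') hq hq' hlt c1 c2 hc h1a h2a with h | h
    · exact h1b (hsub h)
    · exact h2b (hsub h)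

/-- the exact packing hypothesis with parameters `a`, `K` -/
def PackOK (a K : ℕ) : Prop :=
  ∀ (P : Finset ρ) (A : ρ → Finset γ), FreeOn X Y P A →
    (∀ q ∈ P, ∀ q' ∈ P, q ≠ q' → 4 * a ≤ sd (A q) (A q')) → P.card ≤ K

/-- the extension hypothesis -/
def ExtOK : Prop :=
  ∀ (Q : Finset ρ) (E : ρ → Finset γ), FreeOn X Y Q E → ∀ (cov : Set ρ) (f g : ρ → ρ),
    (∀ r ∈ cov, f r ∈ Q ∧ g r ∈ Q ∧ f r ≤ r ∧ r ≤ g r) →
    ∃ B : ρ → Finset γ, FreeOn X Y Finset.univ B ∧
      (∀ r ∈ cov, E (f r) ∩ E (g r) ⊆ B r ∧ B r ⊆ E (f r) ∪ E (g r)) ∧ ∀ r, r ∉ cov → B r = ∅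

theorem gpacking_light (hdel : DelOK X Y) (R : ρ → Finset γ) (a s K : ℕ)
    (hpack : PackOK (ρ := ρ) X Y a K)
    (hs : (K + 1) * (K + 1) * (2 * s) ≤ a) (P : Finset ρ)
    (hl : ∀ q ∈ P, ∀ q' ∈ P, q < q' → ¬ gheavy X Y R s q q' ∧ 5 * a < sd (R q) (R q')) :
    P.card ≤ K := by
  classical
  by_contra hcon
  obtain ⟨P', hP'sub, hP'card⟩ := Finset.exists_subset_card_eq (s := P) (n := K + 1) (by omega)
  obtain ⟨D, hD1, hD2⟩ := gexactify X Y hdel R s P'
    (fun q hq q' hq' hlt => (hl q (hP'sub hq) q' (hP'sub hq') hlt).1)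
  rw [hP'card] at hD1
  have hfar : ∀ q ∈ P', ∀ q' ∈ P', q ≠ q' → 4 * a ≤ sd (R q \ D) (R q' \ D) := by
    have key : ∀ q ∈ P', ∀ q' ∈ P', q < q' → 4 * a ≤ sd (R q \ D) (R q' \ D) := by
      intro q hq q' hq' hlt
      have h1 := (hl q (hP'sub hq) q' (hP'sub hq') hlt).2
      have h2 := sd_sdiff_ge (R q) (R q') D
      omega
    intro q hq q' hq' hne
    rcases lt_or_gt_of_ne hne with h | h
    · exact key q hq q' hq' h
    · rw [sd_comm]
      exact key q' hq' q hq h
  have := hpack P' (fun q => R q \ D) hD2 hfar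
  omega

/-- the assembly: an explicit bound for the distance to freeness -/
theorem gcore (hdel : DelOK X Y) (hext : ExtOK (ρ := ρ) X Y) (R : ρ → Finset γ) (n a s κ K : ℕ)
    (hρ : Fintype.card ρ = n) (hγ : Fintype.card γ = n)
    (hpack : PackOK (ρ := ρ) X Y a K)
    (hs : (K + 1) * (K + 1) * (2 * s) ≤ a) :
    ∃ B : ρ → Finset γ, FreeOn X Y Finset.univ B ∧
      ∑ r, sd (B r) (R r) ≤ ((gbadSet X Y R s κ).card + 2 * K * κ) * n + n * (14 * a) := by
  classical
  subst hγ
  set conf : ρ → ρ → Prop := fun q r => sd (R q) (R r) ≤ 5 * a ∨ gheavy X Y R s q r with hconf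
  obtain ⟨QL, hQL⟩ := greedy (fun q r : ρ => q < r) wellFounded_lt
    (fun r => ¬ gbad X Y R s κ r) conf
  obtain ⟨QR, hQR⟩ := greedy (fun q r : ρ => r < q) wellFounded_gt
    (fun r => ¬ gbad X Y R s κ r ∧ ∀ q ∈ QL, ¬ gheavy X Y R s q r) conf
  have hLL : ∀ q ∈ QL, ∀ q' ∈ QL, q < q' →
      ¬ gheavy X Y R s q q' ∧ 5 * a < sd (R q) (R q') := by
    intro q hq q' hq' hlt
    have h := ((hQL q').mp hq').2 q hq hlt
    simp only [hconf, not_or, not_le] at h
    exact ⟨h.2, h.1⟩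
  have hRR : ∀ q ∈ QR, ∀ q' ∈ QR, q < q' →
      ¬ gheavy X Y R s q q' ∧ 5 * a < sd (R q) (R q') := by
    intro q hq q' hq' hlt
    have h := ((hQR q).mp hq).2 q' hq' hlt
    simp only [hconf, not_or, not_le] at h
    rw [gheavy_comm, sd_comm]
    exact ⟨h.2, h.1⟩
  have hcL : QL.card ≤ K := gpacking_light X Y hdel R a s K hpack hs QL hLL
  have hcR : QR.card ≤ K := gpacking_light X Y hdel R a s K hpack hs QR hRR
  set Q := QL ∪ QR with hQ
  have hcQ : Q.card ≤ 2 * K := by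
    have := Finset.card_union_le QL QR
    rw [hQ]
    omega
  have hlight : ∀ q ∈ Q, ∀ q' ∈ Q, q < q' → ¬ gheavy X Y R s q q' := by
    intro q hq q' hq' hlt
    rcases Finset.mem_union.mp hq with h1 | h1 <;> rcases Finset.mem_union.mp hq' with h2 | h2
    · exact (hLL q h1 q' h2 hlt).1
    · exact ((hQR q').mp h2).1.2 q h1
    · rw [gheavy_comm]
      exact ((hQR q).mp h1).1.2 q' h2
    · exact (hRR q h1 q' h2 hlt).1
  have hgoodQ : ∀ q ∈ Q, (ghnb X Y R s q).card ≤ κ := by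
    intro q hq
    rcases Finset.mem_union.mp hq with h1 | h1
    · exact not_lt.mp ((hQL q).mp h1).1
    · exact not_lt.mp ((hQR q).mp h1).1.1
  obtain ⟨D, hD1, hD2⟩ := gexactify X Y hdel R s Q hlight
  have hD : D.card ≤ 4 * a := by
    have h1 : Q.card * Q.card * (2 * s) ≤ (2 * K) * (2 * K) * (2 * s) :=
      Nat.mul_le_mul_right _ (Nat.mul_le_mul hcQ hcQ)
    have h2 : (2 * K) * (2 * K) * (2 * s) ≤ 4 * ((K + 1) * (K + 1) * (2 * s)) := by
      have : K * K ≤ (K + 1) * (K + 1) := Nat.mul_le_mul (Nat.le_succ K) (Nat.le_succ K)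
      calc (2 * K) * (2 * K) * (2 * s) = 4 * (K * K * (2 * s)) := by ring
        _ ≤ 4 * ((K + 1) * (K + 1) * (2 * s)) :=
          Nat.mul_le_mul_left _ (Nat.mul_le_mul_right _ this)
    omega
  set cov : Set ρ := {r | (∃ f ∈ QL, f ≤ r ∧ sd (R f) (R r) ≤ 5 * a) ∧
    (∃ g ∈ QR, r ≤ g ∧ sd (R g) (R r) ≤ 5 * a)} with hcov
  have hf : ∀ r, ∃ f, r ∈ cov → f ∈ QL ∧ f ≤ r ∧ sd (R f) (R r) ≤ 5 * a := by
    intro r
    by_cases hr : r ∈ cov
    · obtain ⟨f, h1, h2, h3⟩ := hr.1
      exact ⟨f, fun _ => ⟨h1, h2, h3⟩⟩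
    · exact ⟨r, fun h => absurd h hr⟩
  have hg : ∀ r, ∃ g, r ∈ cov → g ∈ QR ∧ r ≤ g ∧ sd (R g) (R r) ≤ 5 * a := by
    intro r
    by_cases hr : r ∈ cov
    · obtain ⟨g, h1, h2, h3⟩ := hr.2
      exact ⟨g, fun _ => ⟨h1, h2, h3⟩⟩
    · exact ⟨r, fun h => absurd h hr⟩
  choose f hf using hf
  choose g hg using hg
  obtain ⟨B, hB1, hB2, hB3⟩ := hext Q (fun q => R q \ D) hD2 cov f g (fun r hr =>
    ⟨Finset.mem_union_left _ (hf r hr).1, Finset.mem_union_right _ (hg r hr).1,
      (hf r hr).2.1, (hg r hr).2.1⟩)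
  refine ⟨B, hB1, ?_⟩
  have hcovd : ∀ r ∈ cov, sd (B r) (R r) ≤ 14 * a := by
    intro r hr
    obtain ⟨_, _, hf3⟩ := hf r hr
    obtain ⟨_, _, hg3⟩ := hg r hr
    obtain ⟨hlow, hup⟩ := hB2 r hr
    have h1 : B r \ R r ⊆ (R (f r) \ R r) ∪ (R (g r) \ R r) := by
      intro y hy
      rw [Finset.mem_sdiff] at hy
      have := hup hy.1
      simp only [Finset.mem_union, Finset.mem_sdiff] at this ⊢
      tauto
    have h2 : R r \ B r ⊆ (R r \ R (f r)) ∪ (R r \ R (g r)) ∪ D := by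
      intro y hy
      rw [Finset.mem_sdiff] at hy
      by_contra hcon
      simp only [Finset.mem_union, Finset.mem_sdiff, not_or, not_and, not_not] at hcon
      apply hy.2
      apply hlow
      simp only [Finset.mem_inter, Finset.mem_sdiff]
      exact ⟨⟨hcon.1.1 hy.1, hcon.2⟩, ⟨hcon.1.2 hy.1, hcon.2⟩⟩
    have h3 := (Finset.card_le_card h1).trans (Finset.card_union_le _ _)
    have h4 := (Finset.card_le_card h2).trans ((Finset.card_union_le _ _).trans
      (Nat.add_le_add_right (Finset.card_union_le _ _) _))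
    unfold sd at hf3 hg3 ⊢
    omega
  have huncd : ∀ r, r ∉ cov → sd (B r) (R r) ≤ Fintype.card γ := by
    intro r hr
    rw [hB3 r hr]
    simp only [sd, Finset.empty_sdiff, Finset.card_empty, Finset.sdiff_empty, zero_add]
    exact Finset.card_le_univ _
  have hunc : (Finset.univ.filter (fun r => r ∉ cov)).card ≤
      (gbadSet X Y R s κ).card + 2 * K * κ := by
    have hsub : Finset.univ.filter (fun r => r ∉ cov) ⊆
        gbadSet X Y R s κ ∪ Q.biUnion (fun q => ghnb X Y R s q) := by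
      intro r hr
      have hr' : r ∉ cov := (Finset.mem_filter.mp hr).2
      by_contra hcon
      rw [Finset.mem_union, not_or] at hcon
      obtain ⟨hb, hh⟩ := hcon
      have hb' : ¬ gbad X Y R s κ r :=
        fun h => hb (Finset.mem_filter.mpr ⟨Finset.mem_univ _, h⟩)
      have hh' : ∀ q ∈ Q, ¬ gheavy X Y R s q r := by
        intro q hq hqr
        exact hh (Finset.mem_biUnion.mpr ⟨q, hq, Finset.mem_filter.mpr ⟨Finset.mem_univ _, hqr⟩⟩)
      apply hr'
      constructor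
      · by_cases hrL : r ∈ QL
        · exact ⟨r, hrL, le_refl _, by rw [sd_self]; omega⟩
        · have h1 := (not_congr (hQL r)).mp hrL
          push Not at h1
          obtain ⟨q, hq, hlt, hc⟩ := h1 hb'
          rcases hc with hc | hc
          · exact ⟨q, hq, hlt.le, hc⟩
          · exact absurd hc (hh' q (Finset.mem_union_left _ hq))
      · by_cases hrR : r ∈ QR
        · exact ⟨r, hrR, le_refl _, by rw [sd_self]; omega⟩
        · have h1 := (not_congr (hQR r)).mp hrR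
          push Not at h1
          obtain ⟨q, hq, hlt, hc⟩ := h1 ⟨hb', fun q hq => hh' q (Finset.mem_union_left _ hq)⟩
          rcases hc with hc | hc
          · exact ⟨q, hq, hlt.le, hc⟩
          · exact absurd hc (hh' q (Finset.mem_union_right _ hq))
    have h1 := (Finset.card_le_card hsub).trans (Finset.card_union_le _ _)
    have h2 := Finset.card_biUnion_le_card_mul Q (fun q => ghnb X Y R s q) κ hgoodQ
    have h3 : Q.card * κ ≤ 2 * K * κ := Nat.mul_le_mul_right _ hcQ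
    omega
  calc ∑ r, sd (B r) (R r)
      ≤ ∑ r : ρ, ((if r ∉ cov then 1 else 0) * Fintype.card γ + 14 * a) := by
        apply Finset.sum_le_sum
        intro r _
        by_cases hr : r ∈ cov
        · have := hcovd r hr
          simp only [hr, not_true_eq_false, if_false]
          omega
        · have := huncd r hr
          simp only [hr, not_false_eq_true, if_true]
          omega
    _ = (Finset.univ.filter (fun r => r ∉ cov)).card * Fintype.card γ
          + Fintype.card γ * (14 * a) := by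
        rw [Finset.sum_add_distrib, ← Finset.sum_mul, Finset.sum_boole, Finset.sum_const,
          Finset.card_univ, hρ, smul_eq_mul]
        simp
    _ ≤ ((gbadSet X Y R s κ).card + 2 * K * κ) * Fintype.card γ + Fintype.card γ * (14 * a) := by
        apply Nat.add_le_add_right
        exact Nat.mul_le_mul_right _ hunc

end Vale.Agent.Lib.P037
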