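import Mathlib
import Vale.Agent.Lib.P037.Defs
import Vale.Agent.Lib.P037.GenCore
import Vale.Agent.Lib.P037.Numeric
import Vale.Agent.Lib.P037.Final

/-!
# P037: generic choice of parameters and passage to the real form
-/

namespace Vale.Agent.Lib.P037

open Finset

set_option linter.unusedSectionVars false

section int

variable {ρ γ : Type*} [LinearOrder ρ] [LinearOrder γ] [Fintype ρ] [Fintype γ]

variable (X Y : Finset γ → Finset γ → Finset γ)

theorem free_of_GN_zero (R : ρ → Finset γ) (h : GN X Y R = 0) : FreeOn X Y Finset.univ R := by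
  intro r1 _ r2 _ h12 c1 c2 hc h1 h2
  unfold GN at h
  rw [Finset.sum_eq_zero_iff] at h
  have h5 := h r1 (Finset.mem_univ _)
  rw [Finset.sum_eq_zero_iff] at h5
  have h6 := h5 r2 (Finset.mem_univ _)
  unfold GV at h6
  rw [if_pos h12, Finset.card_eq_zero] at h6
  have : (c1, c2) ∈ pairSet (X (R r1) (R r2)) (Y (R r1) (R r2)) := mem_pairSet.mpr ⟨h1, h2, hc⟩
  rw [h6] at this
  exact absurd this (Finset.notMem_empty _)

theorem gint_removal (hdel : DelOK X Y) (hext : ExtOK (ρ := ρ) X Y) (R : ρ → Finset γ)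
    (n t K1 n0 : ℕ) (ht : 1 ≤ t) (hρ : Fintype.card ρ = n) (hγ : Fintype.card γ = n)
    (h56 : 56 * t ≤ n0)
    (hpack : n0 ≤ n → ∃ K, K + 1 ≤ K1 ∧ PackOK (ρ := ρ) X Y (n / (56 * t)) K)
    (hN : GN X Y R * (1024 * t ^ 2 * (56 * t) ^ 2 * K1 ^ 5 + n0 ^ 4) < n ^ 4) :
    ∃ B : ρ → Finset γ, FreeOn X Y Finset.univ B ∧ t * ∑ r, sd (B r) (R r) < n ^ 2 := by
  have hn0 : 0 < n := by
    rcases Nat.eq_zero_or_pos n with h | h
    · subst h
      simp at hN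
    · exact h
  by_cases hnd : n < n0
  · have hN0 : GN X Y R = 0 := by
      by_contra hne
      have h1 : 1 ≤ GN X Y R := Nat.one_le_iff_ne_zero.mpr hne
      have h2 : n ^ 4 < n0 ^ 4 := Nat.pow_lt_pow_left hnd (by norm_num)
      have h3 : n0 ^ 4 ≤ GN X Y R * (1024 * t ^ 2 * (56 * t) ^ 2 * K1 ^ 5 + n0 ^ 4) :=
        (Nat.le_add_left _ _).trans (Nat.le_mul_of_pos_left _ h1)
      omega
    refine ⟨R, free_of_GN_zero X Y R hN0, ?_⟩
    simp only [sd_self, Finset.sum_const_zero, mul_zero]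
    positivity
  · push Not at hnd
    obtain ⟨K, hKK1, hpk⟩ := hpack hnd
    obtain ⟨d, hd⟩ : ∃ d, d = 56 * t := ⟨_, rfl⟩
    have hd0 : 0 < d := by omega
    rw [← hd] at hpk hN
    obtain ⟨a, ha⟩ : ∃ a, a = n / d := ⟨_, rfl⟩
    rw [← ha] at hpk
    have ha1 : 1 ≤ a := by
      rw [ha]; exact (Nat.one_le_div_iff hd0).mpr (by omega)
    have hda : d * a ≤ n := by rw [ha]; exact Nat.mul_div_le n d
    have hn2 : n ≤ 2 * d * a := by
      have := lt_div_succ_mul n d hd0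
      rw [← ha] at this
      nlinarith
    have hK10 : 0 < K1 := by omega
    obtain ⟨s, hs⟩ : ∃ s, s = a / (2 * K1 ^ 2) := ⟨_, rfl⟩
    obtain ⟨κ, hκ⟩ : ∃ κ, κ = n / (8 * t * K1) := ⟨_, rfl⟩
    have hs1 : (K + 1) * (K + 1) * (2 * s) ≤ a := by
      have h1 : (K + 1) * (K + 1) ≤ K1 ^ 2 := by
        rw [pow_two]; exact Nat.mul_le_mul hKK1 hKK1
      have h2 : 2 * K1 ^ 2 * s ≤ a := by rw [hs]; exact Nat.mul_div_le a _
      calc (K + 1) * (K + 1) * (2 * s) ≤ K1 ^ 2 * (2 * s) := Nat.mul_le_mul_right _ h1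
        _ = 2 * K1 ^ 2 * s := by ring
        _ ≤ a := h2
    obtain ⟨B, hB1, hB2⟩ := gcore X Y hdel hext R n a s κ K hρ hγ hpk hs1
    refine ⟨B, hB1, ?_⟩
    have hbc := gbad_count X Y R s κ
    have hκ1 : 8 * t * K1 * κ ≤ n := by rw [hκ]; exact Nat.mul_div_le n _
    have hκ2 : n < (κ + 1) * (8 * t * K1) := by
      rw [hκ]; exact lt_div_succ_mul n _ (by positivity)
    have hs2 : a < (s + 1) * (2 * K1 ^ 2) := by
      rw [hs]; exact lt_div_succ_mul a _ (by positivity)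
    have hN' : GN X Y R * (1024 * t ^ 2 * d ^ 2 * K1 ^ 5) < n ^ 4 :=
      lt_of_le_of_lt (Nat.mul_le_mul_left _ (Nat.le_add_right _ _)) hN
    have hbad := arith_bad n t d K1 a s κ _ _ hn2 hκ2 hs2 hbc hN'
    exact arith_final n t K K1 κ a _ _ hn0 hbad (by omega) hκ1 (hd ▸ hda) hB2

end int

/-- passage from the integer form to the real form -/
theorem real_of_int {H : Fin 2 → Fin 2 → Bool} (Nc : ∀ n, (Fin n → Fin n → Bool) → ℕ)
    (hNc : ∀ n A, Nc n A ≤ (copies H A).card) (Pt : ℕ → ℕ) (c0 C : ℕ) (hC : 0 < C)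
    (hc0 : 0 < c0) (hPt : ∀ t, 1 ≤ t → Pt t ≤ c0 * t ^ C)
    (hint : ∀ n t (A : Fin n → Fin n → Bool), 1 ≤ t → Nc n A * Pt t < n ^ 4 →
      ∃ B : Fin n → Fin n → Bool, copies H B = ∅ ∧ t * hamming A B < n ^ 2) :
    PolyRemoval H := by
  have hc0pos : (0 : ℝ) < c0 := by exact_mod_cast hc0
  refine ⟨1 / (c0 * 2 ^ C), by positivity, C, hC, ?_⟩
  intro n ε A hε0 hε1 hfar
  by_contra hcon
  push Not at hcon
  obtain ⟨t, ht⟩ : ∃ t : ℕ, t = ⌈1 / ε⌉₊ := ⟨_, rfl⟩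
  have ht1 : 1 ≤ t := by
    rw [ht]; exact Nat.ceil_pos.mpr (by positivity)
  have htl : 1 / ε ≤ (t : ℝ) := by rw [ht]; exact Nat.le_ceil _
  have htu : (t : ℝ) < 1 / ε + 1 := by rw [ht]; exact Nat.ceil_lt_add_one (by positivity)
  have htpos : (0 : ℝ) < t := by exact_mod_cast ht1
  have hεt1 : 1 ≤ ε * t := by
    have := mul_le_mul_of_nonneg_left htl hε0.le
    rwa [mul_one_div_cancel hε0.ne'] at this
  have hεt2 : ε * t ≤ 2 := by
    have := mul_lt_mul_of_pos_left htu hε0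
    rw [mul_add, mul_one_div_cancel hε0.ne'] at this
    linarith
  have hNM : (Nc n A : ℝ) ≤ ((copies H A).card : ℝ) := by
    exact_mod_cast hNc n A
  have hP : (Pt t : ℝ) ≤ c0 * (t : ℝ) ^ C := by
    exact_mod_cast hPt t ht1
  have hN : Nc n A * Pt t < n ^ 4 := by
    have h3 : (Nc n A : ℝ) * (Pt t : ℝ) ≤ ((copies H A).card : ℝ) * (c0 * (t : ℝ) ^ C) :=
      mul_le_mul hNM hP (by positivity) (by positivity)
    have h4 := mul_lt_mul_of_pos_right hcon (show 0 < (c0 : ℝ) * (t : ℝ) ^ C by positivity)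
    have h5 : 1 / ((c0 : ℝ) * 2 ^ C) * ε ^ C * (n : ℝ) ^ (2 * 2) * (c0 * (t : ℝ) ^ C)
        = (ε * t) ^ C / 2 ^ C * (n : ℝ) ^ 4 := by
      rw [mul_pow]
      field_simp
    have h6 : (ε * t) ^ C / 2 ^ C * (n : ℝ) ^ 4 ≤ (n : ℝ) ^ 4 := by
      have h7 : (ε * t) ^ C ≤ 2 ^ C := pow_le_pow_left₀ (by positivity) hεt2 C
      have h8 : (ε * t) ^ C / 2 ^ C ≤ 1 := by
        rw [div_le_one (by positivity)]; exact h7
      have h9 : (0 : ℝ) ≤ (n : ℝ) ^ 4 := by positivity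
      nlinarith
    have h10 : ((Nc n A * Pt t : ℕ) : ℝ) < ((n ^ 4 : ℕ) : ℝ) := by
      push_cast
      linarith
    exact_mod_cast h10
  obtain ⟨B, hB1, hB2⟩ := hint n t A ht1 hN
  have h1 := hfar _ hB1
  have h3 : ((t * hamming A B : ℕ) : ℝ) < ((n ^ 2 : ℕ) : ℝ) := by
    exact_mod_cast hB2
  push_cast at h3
  have h5 := mul_le_mul_of_nonneg_left h1 htpos.le
  have h6 : (0 : ℝ) ≤ (n : ℝ) ^ 2 := by positivity
  nlinarith

/-- the operations `X`, `Y` describe the pattern `H` -/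
def PatOK (H : Fin 2 → Fin 2 → Bool)
    (X Y : ∀ n, Finset (Fin n) → Finset (Fin n) → Finset (Fin n)) : Prop :=
  ∀ (n : ℕ) (A : Fin n → Fin n → Bool) (r1 r2 c1 c2 : Fin n),
    (c1 ∈ X n (rowSet A r1) (rowSet A r2) ∧ c2 ∈ Y n (rowSet A r1) (rowSet A r2)) ↔
      (A r1 c1 = H 0 0 ∧ A r1 c2 = H 0 1 ∧ A r2 c1 = H 1 0 ∧ A r2 c2 = H 1 1)

theorem rowSet_decide {n : ℕ} (B : Fin n → Finset (Fin n)) (r : Fin n) :
    rowSet (fun r c => decide (c ∈ B r)) r = B r := by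
  ext c
  simp [rowSet]

theorem GN_le_copies {H : Fin 2 → Fin 2 → Bool}
    {X Y : ∀ n, Finset (Fin n) → Finset (Fin n) → Finset (Fin n)} (hpat : PatOK H X Y) {n : ℕ}
    (A : Fin n → Fin n → Bool) : GN (X n) (Y n) (rowSet A) ≤ (copies H A).card := by
  classical
  set S : Finset (Σ _ : Fin n × Fin n, Fin n × Fin n) :=
    (Finset.univ : Finset (Fin n × Fin n)).sigma
      (fun p => if p.1 < p.2 then
        pairSet (X n (rowSet A p.1) (rowSet A p.2)) (Y n (rowSet A p.1) (rowSet A p.2))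
        else ∅) with hS
  have hcard : S.card = GN (X n) (Y n) (rowSet A) := by
    rw [hS, Finset.card_sigma, Fintype.sum_prod_type]
    unfold GN GV
    apply Finset.sum_congr rfl
    intro r _
    apply Finset.sum_congr rfl
    intro r' _
    split_ifs <;> simp
  rw [← hcard]
  apply Finset.card_le_card_of_injOn (fun q => (![q.1.1, q.1.2], ![q.2.1, q.2.2]))
  · intro q hq
    have hq' := (Finset.mem_sigma.mp (Finset.mem_coe.mp hq)).2
    by_cases hlt : q.1.1 < q.1.2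
    · rw [if_pos hlt, mem_pairSet] at hq'
      obtain ⟨h1, h2, hc⟩ := hq'
      obtain ⟨e1, e2, e3, e4⟩ := (hpat n A _ _ _ _).mp ⟨h1, h2⟩
      refine Finset.mem_coe.mpr (mem_copies.mpr ⟨strictMono_pair hlt, strictMono_pair hc, ?_⟩)
      intro i j
      fin_cases i <;> fin_cases j <;> simp [e1, e2, e3, e4]
    · rw [if_neg hlt] at hq'
      exact absurd hq' (Finset.notMem_empty _)
  · intro q _ q' _ h
    simp only [Prod.mk.injEq] at h
    have a1 := congrFun h.1 0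
    have a2 := congrFun h.1 1
    have a3 := congrFun h.2 0
    have a4 := congrFun h.2 1
    simp only [Matrix.cons_val_zero, Matrix.cons_val_one] at a1 a2 a3 a4
    obtain ⟨⟨x1, x2⟩, ⟨x3, x4⟩⟩ := q
    obtain ⟨⟨y1, y2⟩, ⟨y3, y4⟩⟩ := q'
    simp only at a1 a2 a3 a4
    subst a1 a2 a3 a4
    rfl

theorem copies_empty_of_FreeOn {H : Fin 2 → Fin 2 → Bool}
    {X Y : ∀ n, Finset (Fin n) → Finset (Fin n) → Finset (Fin n)} (hpat : PatOK H X Y) {n : ℕ}
    (B : Fin n → Finset (Fin n)) (hB : FreeOn (X n) (Y n) Finset.univ B) :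
    copies H (fun r c => decide (c ∈ B r)) = ∅ := by
  rw [Finset.eq_empty_iff_forall_notMem]
  intro p hp
  obtain ⟨h1, h2, h3⟩ := mem_copies.mp hp
  have h4 := (hpat n (fun r c => decide (c ∈ B r)) (p.1 0) (p.1 1) (p.2 0) (p.2 1)).mpr
    ⟨h3 0 0, h3 0 1, h3 1 0, h3 1 1⟩
  rw [rowSet_decide, rowSet_decide] at h4
  exact hB _ (Finset.mem_univ _) _ (Finset.mem_univ _) (h1 (by decide : (0 : Fin 2) < 1)) _ _
    (h2 (by decide : (0 : Fin 2) < 1)) h4.1 h4.2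

/-- the master theorem: pattern-specific packing and extension give polynomial removal -/
theorem master (H : Fin 2 → Fin 2 → Bool)
    (X Y : ∀ n, Finset (Fin n) → Finset (Fin n) → Finset (Fin n)) (hpat : PatOK H X Y)
    (hdel : ∀ n, DelOK (X n) (Y n)) (hext : ∀ n, ExtOK (ρ := Fin n) (X n) (Y n))
    (K1 n0 : ℕ → ℕ) (h56 : ∀ t, 56 * t ≤ n0 t)
    (hpack : ∀ n t, 1 ≤ t → n0 t ≤ n →
      ∃ K, K + 1 ≤ K1 t ∧ PackOK (ρ := Fin n) (X n) (Y n) (n / (56 * t)) K)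
    (c0 C : ℕ) (hC : 0 < C) (hc0 : 0 < c0)
    (hpoly : ∀ t, 1 ≤ t → 1024 * t ^ 2 * (56 * t) ^ 2 * (K1 t) ^ 5 + (n0 t) ^ 4 ≤ c0 * t ^ C) :
    PolyRemoval H := by
  refine real_of_int (fun n A => GN (X n) (Y n) (rowSet A)) (fun n A => GN_le_copies hpat A)
    (fun t => 1024 * t ^ 2 * (56 * t) ^ 2 * (K1 t) ^ 5 + (n0 t) ^ 4) c0 C hC hc0 hpoly ?_
  intro n t A ht hN
  obtain ⟨B, hB1, hB2⟩ := gint_removal (X n) (Y n) (hdel n) (hext n) (rowSet A) n t (K1 t) (n0 t)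
    ht (by simp) (by simp) (h56 t) (hpack n t ht) hN
  refine ⟨fun r c => decide (c ∈ B r), copies_empty_of_FreeOn hpat B hB1, ?_⟩
  exact lt_of_le_of_lt (Nat.mul_le_mul_left _ (hamming_le_sum A B)) hB2

end Vale.Agent.Lib.P037
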