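import Mathlib

/-!
# P037: the extension lemma for the identity pattern (1,0),(0,1)

Time is a natural number.  `Prec Z Z'` says that a row with column set `Z` may stand before a row
with column set `Z'`.  Given an exact skeleton of anchor rows, a row between two anchors is filled
in by running a process that starts at the earlier anchor and, at every anchor it passes, is
intersected with it or united with it.
-/

namespace Vale.Agent.Lib.P037

set_option linter.unusedSectionVars false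

variable {γ : Type*} [LinearOrder γ]

/-- no copy of (1,0),(0,1) on the ordered pair of rows `Z`, `Z'` -/
def Prec (Z Z' : Set γ) : Prop :=
  ∀ c1 c2, c1 < c2 → c1 ∈ Z → c1 ∉ Z' → c2 ∉ Z → c2 ∈ Z' → False

theorem Prec.inter_right {Z S T : Set γ} (h1 : Prec Z S) (h2 : Prec Z T) : Prec Z (S ∩ T) := by
  intro c1 c2 hc a1 a2 a3 a4
  by_cases h : c1 ∈ S
  · exact h2 c1 c2 hc a1 (fun h' => a2 ⟨h, h'⟩) a3 a4.2
  · exact h1 c1 c2 hc a1 h a3 a4.1

theorem Prec.union_right {Z S T : Set γ} (h1 : Prec Z S) (h2 : Prec Z T) : Prec Z (S ∪ T) := by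
  intro c1 c2 hc a1 a2 a3 a4
  rcases a4 with h | h
  · exact h1 c1 c2 hc a1 (fun h' => a2 (Or.inl h')) a3 h
  · exact h2 c1 c2 hc a1 (fun h' => a2 (Or.inr h')) a3 h

theorem Prec.inter_left {Z S T : Set γ} (h1 : Prec S Z) (h2 : Prec T Z) : Prec (S ∩ T) Z := by
  intro c1 c2 hc a1 a2 a3 a4
  by_cases h : c2 ∈ S
  · exact h2 c1 c2 hc a1.2 a2 (fun h' => a3 ⟨h, h'⟩) a4
  · exact h1 c1 c2 hc a1.1 a2 h a4

theorem Prec.union_left {Z S T : Set γ} (h1 : Prec S Z) (h2 : Prec T Z) : Prec (S ∪ T) Z := by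
  intro c1 c2 hc a1 a2 a3 a4
  rcases a1 with h | h
  · exact h1 c1 c2 hc h a2 (fun h' => a3 (Or.inl h')) a4
  · exact h2 c1 c2 hc h a2 (fun h' => a3 (Or.inr h')) a4

theorem Prec.of_subset {S T : Set γ} (h : S ⊆ T) : Prec S T :=
  fun _ _ _ a1 a2 _ _ => a2 (h a1)

theorem Prec.of_superset {S T : Set γ} (h : T ⊆ S) : Prec S T :=
  fun _ _ _ _ _ a3 a4 => a3 (h a4)

theorem Prec.of_nested {S T : Set γ} (h : S ⊆ T ∨ T ⊆ S) : Prec S T :=
  h.elim Prec.of_subset Prec.of_superset

open Classical in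
/-- one step of the process at time `t` -/
noncomputable def stp (Q : Set ℕ) (E : ℕ → Set γ) (C : Set γ) (S : Set γ) (t : ℕ) : Set γ :=
  if t ∈ Q then (if C ⊆ E t then S ∩ E t else S ∪ E t) else S

/-- the state at time `t` of the process with core `C` started at the anchor `a` -/
noncomputable def st (Q : Set ℕ) (E : ℕ → Set γ) (C : Set γ) (a : ℕ) : ℕ → Set γ
  | 0 => E a
  | t + 1 => if t + 1 ≤ a then E a else stp Q E C (st Q E C a t) (t + 1)

theorem st_of_le (Q : Set ℕ) (E : ℕ → Set γ) (C : Set γ) (a : ℕ) {t : ℕ} (h : t ≤ a) :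
    st Q E C a t = E a := by
  cases t with
  | zero => rfl
  | succ t => simp [st, h]

theorem st_succ (Q : Set ℕ) (E : ℕ → Set γ) (C : Set γ) (a : ℕ) {t : ℕ} (h : a ≤ t) :
    st Q E C a (t + 1) = stp Q E C (st Q E C a t) (t + 1) := by
  have : ¬ (t + 1 ≤ a) := by omega
  simp [st, this]

/-- the three possible outcomes of a step -/
theorem stp_cases (Q : Set ℕ) (E : ℕ → Set γ) (C S : Set γ) (t : ℕ) :
    (t ∉ Q ∧ stp Q E C S t = S) ∨ (t ∈ Q ∧ C ⊆ E t ∧ stp Q E C S t = S ∩ E t) ∨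
      (t ∈ Q ∧ ¬ C ⊆ E t ∧ stp Q E C S t = S ∪ E t) := by
  unfold stp
  by_cases h1 : t ∈ Q
  · by_cases h2 : C ⊆ E t
    · right; left; simp [h1, h2]
    · right; right; simp [h1, h2]
  · left; simp [h1]

variable {Q : Set ℕ} {E : ℕ → Set γ}

/-- the state is always insertable at its time -/
theorem st_insertable (hE : ∀ q ∈ Q, ∀ q' ∈ Q, q < q' → Prec (E q) (E q')) (C : Set γ) {a : ℕ}
    (ha : a ∈ Q) : ∀ t, a ≤ t →
      (∀ q ∈ Q, q ≤ t → Prec (E q) (st Q E C a t)) ∧
      (∀ q ∈ Q, t < q → Prec (st Q E C a t) (E q)) := by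
  intro t ht
  induction t, ht using Nat.le_induction with
  | base =>
    rw [st_of_le Q E C a le_rfl]
    refine ⟨fun q hq hqa => ?_, fun q hq hqa => hE a ha q hq hqa⟩
    rcases hqa.lt_or_eq with h | h
    · exact hE q hq a ha h
    · subst h; exact Prec.of_subset (le_refl _)
  | succ t ht ih =>
    obtain ⟨ih1, ih2⟩ := ih
    rw [st_succ Q E C a ht]
    rcases stp_cases Q E C (st Q E C a t) (t + 1) with ⟨h1, h2⟩ | ⟨h1, _, h2⟩ | ⟨h1, _, h2⟩
    · rw [h2]
      refine ⟨fun q hq hqt => ?_, fun q hq hqt => ih2 q hq (by omega)⟩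
      rcases hqt.lt_or_eq with h | h
      · exact ih1 q hq (by omega)
      · subst h; exact absurd hq h1
    · rw [h2]
      refine ⟨fun q hq hqt => ?_, fun q hq hqt => ?_⟩
      · rcases hqt.lt_or_eq with h | h
        · exact (ih1 q hq (by omega)).inter_right (hE q hq _ h1 h)
        · subst h; exact Prec.of_superset Set.inter_subset_right
      · exact (ih2 q hq (by omega)).inter_left (hE _ h1 q hq hqt)
    · rw [h2]
      refine ⟨fun q hq hqt => ?_, fun q hq hqt => ?_⟩
      · rcases hqt.lt_or_eq with h | h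
        · exact (ih1 q hq (by omega)).union_right (hE q hq _ h1 h)
        · subst h; exact Prec.of_subset Set.subset_union_right
      · exact (ih2 q hq (by omega)).union_left (hE _ h1 q hq hqt)

/-- a step keeps two states nested -/
theorem stp_nested (C C' S S' : Set γ) (t : ℕ) (h : S ⊆ S' ∨ S' ⊆ S) :
    stp Q E C S t ⊆ stp Q E C' S' t ∨ stp Q E C' S' t ⊆ stp Q E C S t := by
  rcases stp_cases Q E C S t with ⟨h1, h2⟩ | ⟨h1, _, h2⟩ | ⟨h1, _, h2⟩ <;>
  rcases stp_cases Q E C' S' t with ⟨h1', h2'⟩ | ⟨h1', _, h2'⟩ | ⟨h1', _, h2'⟩ <;>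
  rw [h2, h2']
  · exact h
  · exact absurd h1' h1
  · exact absurd h1' h1
  · exact absurd h1 h1'
  · rcases h with h | h
    · exact Or.inl (Set.inter_subset_inter_left _ h)
    · exact Or.inr (Set.inter_subset_inter_left _ h)
  · exact Or.inl (Set.inter_subset_right.trans Set.subset_union_right)
  · exact absurd h1 h1'
  · exact Or.inr (Set.inter_subset_right.trans Set.subset_union_right)
  · rcases h with h | h
    · exact Or.inl (Set.union_subset_union_left _ h)
    · exact Or.inr (Set.union_subset_union_left _ h)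

/-- two processes are nested at every common time (first started first) -/
theorem st_nested_aux (C C' : Set γ) {a a' : ℕ} (ha' : a' ∈ Q) (haa : a ≤ a') :
    ∀ t, a' ≤ t → (st Q E C a t ⊆ st Q E C' a' t ∨ st Q E C' a' t ⊆ st Q E C a t) := by
  intro t ht
  induction t, ht using Nat.le_induction with
  | base =>
    rw [st_of_le Q E C' a' le_rfl]
    rcases haa.lt_or_eq with h | h
    · obtain ⟨k, rfl⟩ : ∃ k, a' = k + 1 := ⟨a' - 1, by omega⟩
      rw [st_succ Q E C a (by omega)]
      rcases stp_cases Q E C (st Q E C a k) (k + 1) with ⟨h1, _⟩ | ⟨_, _, h2⟩ | ⟨_, _, h2⟩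
      · exact absurd ha' h1
      · rw [h2]; exact Or.inl Set.inter_subset_right
      · rw [h2]; exact Or.inr Set.subset_union_right
    · subst h
      rw [st_of_le Q E C a le_rfl]
      exact Or.inl (le_refl _)
  | succ t ht ih =>
    rw [st_succ Q E C a (by omega), st_succ Q E C' a' ht]
    exact stp_nested C C' _ _ _ ih

theorem st_nested (C C' : Set γ) {a a' : ℕ} (ha : a ∈ Q) (ha' : a' ∈ Q) {t : ℕ} (h1 : a ≤ t)
    (h2 : a' ≤ t) : st Q E C a t ⊆ st Q E C' a' t ∨ st Q E C' a' t ⊆ st Q E C a t := by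
  rcases le_total a a' with h | h
  · exact st_nested_aux C C' ha' h t h2
  · exact (st_nested_aux C' C ha h t h1).symm

/-- states at different times are compatible -/
theorem st_prec (hE : ∀ q ∈ Q, ∀ q' ∈ Q, q < q' → Prec (E q) (E q')) (C C' : Set γ) {a a' : ℕ}
    (ha : a ∈ Q) (ha' : a' ∈ Q) {t1 : ℕ} (h1 : a ≤ t1) :
    ∀ t2, max t1 a' ≤ t2 → Prec (st Q E C a t1) (st Q E C' a' t2) := by
  intro t2 ht
  have hins := (st_insertable hE C ha t1 h1).2
  induction t2, ht using Nat.le_induction with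
  | base =>
    rcases le_total a' t1 with h | h
    · rw [max_eq_left h]
      exact Prec.of_nested (st_nested C C' ha ha' h1 h)
    · rw [max_eq_right h]
      rcases h.lt_or_eq with h3 | h3
      · rw [st_of_le Q E C' a' le_rfl]
        exact hins a' ha' h3
      · subst h3
        exact Prec.of_nested (st_nested C C' ha ha' h1 le_rfl)
  | succ t ht ih =>
    have hat : a' ≤ t := (le_max_right _ _).trans ht
    have ht1 : t1 ≤ t := (le_max_left _ _).trans ht
    rw [st_succ Q E C' a' hat]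
    rcases stp_cases Q E C' (st Q E C' a' t) (t + 1) with ⟨_, h2⟩ | ⟨h3, _, h2⟩ | ⟨h3, _, h2⟩
    · rw [h2]; exact ih
    · rw [h2]; exact ih.inter_right (hins _ h3 (by omega))
    · rw [h2]; exact ih.union_right (hins _ h3 (by omega))

/-- an anchor strictly between `a` and `b` contains the core or lies in the hull -/
theorem dichotomy (hE : ∀ q ∈ Q, ∀ q' ∈ Q, q < q' → Prec (E q) (E q')) {a j b : ℕ} (ha : a ∈ Q)
    (hj : j ∈ Q) (hb : b ∈ Q) (haj : a < j) (hjb : j < b) (h : ¬ (E a ∩ E b ⊆ E j)) :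
    E j ⊆ E a ∪ E b := by
  rw [Set.not_subset] at h
  obtain ⟨s, hs, hsj⟩ := h
  intro e he
  by_contra hcon
  rw [Set.mem_union, not_or] at hcon
  rcases lt_trichotomy s e with h1 | h1 | h1
  · exact hE a ha j hj haj s e h1 hs.1 hsj hcon.1 he
  · subst h1; exact hsj he
  · exact hE j hj b hb hjb e s h1 he hcon.2 hsj hs.2

/-- the state stays between the core and the hull -/
theorem st_between (hE : ∀ q ∈ Q, ∀ q' ∈ Q, q < q' → Prec (E q) (E q')) {a b : ℕ} (ha : a ∈ Q)
    (hb : b ∈ Q) : ∀ t, a ≤ t → t ≤ b →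
      E a ∩ E b ⊆ st Q E (E a ∩ E b) a t ∧ st Q E (E a ∩ E b) a t ⊆ E a ∪ E b := by
  intro t ht
  induction t, ht using Nat.le_induction with
  | base =>
    intro _
    rw [st_of_le Q E _ a le_rfl]
    exact ⟨Set.inter_subset_left, Set.subset_union_left⟩
  | succ t ht ih =>
    intro htb
    obtain ⟨ih1, ih2⟩ := ih (by omega)
    rw [st_succ Q E _ a ht]
    rcases stp_cases Q E (E a ∩ E b) (st Q E (E a ∩ E b) a t) (t + 1) with
      ⟨_, h2⟩ | ⟨_, h3, h2⟩ | ⟨h4, h3, h2⟩
    · rw [h2]; exact ⟨ih1, ih2⟩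
    · rw [h2]
      exact ⟨Set.subset_inter ih1 h3, Set.inter_subset_left.trans ih2⟩
    · rw [h2]
      refine ⟨ih1.trans Set.subset_union_left, Set.union_subset ih2 ?_⟩
      rcases htb.lt_or_eq with h5 | h5
      · exact dichotomy hE ha h4 hb (by omega) h5 h3
      · rw [h5] at h3
        exact absurd Set.inter_subset_right h3

end Vale.Agent.Lib.P037
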