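import Mathlib
import Vale.Agent.Lib.P037.GenCore

/-!
# P037: the exact packing lemma for the identity pattern
-/

namespace Vale.Agent.Lib.P037

open Finset

theorem sum_lower (L : Finset ℕ) (μ : ℕ) :
    (∀ x ∈ L, μ ≤ x) → 2 * L.card * μ + L.card ^ 2 ≤ 2 * (∑ x ∈ L, x) + L.card := by
  induction L using Finset.induction_on_max with
  | empty => intro _; simp
  | insert a s hs ih =>
    intro h
    have hna : a ∉ s := fun ha => lt_irrefl _ (hs a ha)
    have ih' := ih (fun x hx => h x (Finset.mem_insert_of_mem hx))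
    have hμa : μ ≤ a := h a (Finset.mem_insert_self _ _)
    have hsub : s ⊆ Finset.Ico μ a := by
      intro x hx
      exact Finset.mem_Ico.mpr ⟨h x (Finset.mem_insert_of_mem hx), hs x hx⟩
    have hc := Finset.card_le_card hsub
    rw [Nat.card_Ico] at hc
    rw [Finset.card_insert_of_notMem hna, Finset.sum_insert hna]
    have h2 : μ + s.card ≤ a := by omega
    nlinarith

theorem sum_upper (G : Finset ℕ) (μ : ℕ) :
    (∀ x ∈ G, x < μ) → 2 * (∑ x ∈ G, x) + G.card ^ 2 + G.card ≤ 2 * G.card * μ := by
  induction G using Finset.induction_on_min with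
  | empty => intro _; simp
  | insert a s hs ih =>
    intro h
    have hna : a ∉ s := fun ha => lt_irrefl _ (hs a ha)
    have ih' := ih (fun x hx => h x (Finset.mem_insert_of_mem hx))
    have hμa : a < μ := h a (Finset.mem_insert_self _ _)
    have hsub : s ⊆ Finset.Ioo a μ := by
      intro x hx
      exact Finset.mem_Ioo.mpr ⟨hs x hx, h x (Finset.mem_insert_of_mem hx)⟩
    have hc := Finset.card_le_card hsub
    rw [Nat.card_Ioo] at hc
    rw [Finset.card_insert_of_notMem hna, Finset.sum_insert hna]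
    have h2 : a + s.card + 1 ≤ μ := by omega
    nlinarith

theorem arith_shift (l g μ w n a SL SG : ℤ) (hl : 0 ≤ l) (hg : 0 ≤ g) (hμ : 0 ≤ μ) (hw : 0 ≤ w)
    (ha : 0 ≤ a) (hn : 1 ≤ n)
    (h1 : 2 * l * μ + l ^ 2 ≤ 2 * SL + l) (h2 : 2 * SG + g ^ 2 + g ≤ 2 * g * μ)
    (h3 : 4 * a ≤ l + g) (h4 : l < g + w) (h5 : g < l + w) (h6 : μ ≤ n)
    (h7 : 3 * (w * n) ≤ 4 * a ^ 2) : SG + 2 * a ^ 2 ≤ SL := by
  have e1 : 16 * a ^ 2 ≤ (l + g) ^ 2 := by nlinarith
  have e2 : (l + g) ^ 2 ≤ 2 * (l ^ 2 + g ^ 2) := by nlinarith [sq_nonneg (l - g)]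
  have e3 : w ≤ w * n := by nlinarith
  rcases le_total g l with h | h
  · have e4 : (g - l) * μ ≤ 0 := mul_nonpos_of_nonpos_of_nonneg (by linarith) hμ
    nlinarith
  · have e4 : (g - l) * μ ≤ w * n := mul_le_mul (by linarith) h6 hμ hw
    nlinarith

/-- the sum of the positions of a column set -/
def posSum {n : ℕ} (A : Finset (Fin n)) : ℕ := ∑ x ∈ A, (x : ℕ)

theorem posSum_split {n : ℕ} (A B : Finset (Fin n)) :
    posSum A = posSum (A ∩ B) + posSum (A \ B) := by
  unfold posSum
  rw [← Finset.sum_union (Finset.disjoint_left.mpr (by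
    intro x hx hx'
    exact (Finset.mem_sdiff.mp hx').2 (Finset.mem_inter.mp hx).2))]
  congr 1
  ext x
  simp only [Finset.mem_union, Finset.mem_inter, Finset.mem_sdiff]
  tauto

theorem posSum_eq_map {n : ℕ} (A : Finset (Fin n)) :
    posSum A = ∑ x ∈ A.map Fin.valEmbedding, x := by
  unfold posSum
  rw [Finset.sum_map]
  rfl

theorem posSum_le {n : ℕ} (A : Finset (Fin n)) : posSum A ≤ n * n := by
  unfold posSum
  calc ∑ x ∈ A, (x : ℕ) ≤ ∑ _x ∈ A, n := Finset.sum_le_sum (fun x _ => x.2.le)
    _ = A.card * n := by rw [Finset.sum_const, smul_eq_mul]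
    _ ≤ n * n := Nat.mul_le_mul_right _ (by simpa using Finset.card_le_univ A)

/-- a later far row of about the same size has a much smaller position sum -/
theorem shift_step {n : ℕ} {A A' : Finset (Fin n)} {a w : ℕ}
    (hfree : ∀ c1 c2, c1 < c2 → c1 ∈ A \ A' → c2 ∈ A' \ A → False)
    (hfar : 4 * a ≤ sd A A') (h4 : A.card < A'.card + w) (h5 : A'.card < A.card + w)
    (h7 : 3 * (w * n) ≤ 4 * a ^ 2) (hn : 1 ≤ n) : posSum A' + 2 * a ^ 2 ≤ posSum A := by
  classical
  set L := A \ A' with hL
  set G := A' \ A with hG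
  obtain ⟨μ, hμn, hμL, hμG⟩ : ∃ μ : ℕ, μ ≤ n ∧ (∀ x ∈ L, μ ≤ (x : ℕ)) ∧
      (∀ y ∈ G, (y : ℕ) < μ) := by
    by_cases hne : L.Nonempty
    · refine ⟨(L.min' hne : ℕ), (L.min' hne).2.le, fun x hx => ?_, fun y hy => ?_⟩
      · exact_mod_cast Finset.min'_le L x hx
      · by_contra hcon
        push Not at hcon
        have hm := Finset.min'_mem L hne
        rcases hcon.lt_or_eq with h | h
        · exact hfree _ _ (Fin.lt_def.mpr h) hm hy
        · have : L.min' hne = y := Fin.ext h
          rw [this] at hm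
          exact (Finset.mem_sdiff.mp hm).2 (Finset.mem_sdiff.mp hy).1
    · rw [Finset.not_nonempty_iff_eq_empty] at hne
      refine ⟨n, le_refl _, fun x hx => ?_, fun y _ => y.2⟩
      rw [hne] at hx
      exact absurd hx (Finset.notMem_empty _)
  have s1 := sum_lower (L.map Fin.valEmbedding) μ (by
    intro x hx
    obtain ⟨y, hy, rfl⟩ := Finset.mem_map.mp hx
    exact hμL y hy)
  have s2 := sum_upper (G.map Fin.valEmbedding) μ (by
    intro x hx
    obtain ⟨y, hy, rfl⟩ := Finset.mem_map.mp hx
    exact hμG y hy)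
  rw [Finset.card_map, ← posSum_eq_map] at s1 s2
  have c1 := card_eq_inter_add A A'
  have c2 := card_eq_inter_add A' A
  rw [Finset.inter_comm] at c2
  have p1 := posSum_split A A'
  have p2 := posSum_split A' A
  rw [Finset.inter_comm] at p2
  rw [← hL] at c1 p1
  rw [← hG] at c2 p2
  have hfar' : 4 * a ≤ L.card + G.card := hfar
  have key := arith_shift (L.card : ℤ) (G.card : ℤ) (μ : ℤ) (w : ℤ) (n : ℤ) (a : ℤ)
    (posSum L : ℤ) (posSum G : ℤ) (by positivity) (by positivity) (by positivity) (by positivity)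
    (by positivity) (by exact_mod_cast hn) (by exact_mod_cast s1) (by exact_mod_cast s2)
    (by exact_mod_cast hfar') (by omega) (by omega) (by exact_mod_cast hμn)
    (by exact_mod_cast h7)
  have key' : posSum G + 2 * a ^ 2 ≤ posSum L := by exact_mod_cast key
  omega

theorem id_packing {ρ : Type*} [LinearOrder ρ] {n : ℕ} (a w : ℕ) (ha : 1 ≤ a) (hw : 1 ≤ w)
    (h7 : 3 * (w * n) ≤ 4 * a ^ 2) :
    PackOK (ρ := ρ) (γ := Fin n) (fun R R' => R \ R') (fun R R' => R' \ R) a
      ((n / w + 1) * (n * n / (2 * a ^ 2) + 1)) := by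
  classical
  intro P A hfree hfar
  rcases Nat.eq_zero_or_pos n with hn | hn
  · -- no columns: all sets are empty
    subst hn
    have : P.card ≤ 1 := by
      rw [Finset.card_le_one]
      intro q hq q' hq'
      by_contra hne
      have h1 := hfar q hq q' hq' hne
      have h2 : sd (A q) (A q') = 0 := by
        unfold sd
        have e1 : A q \ A q' = ∅ := by
          ext x; exact x.elim0
        have e2 : A q' \ A q = ∅ := by
          ext x; exact x.elim0
        rw [e1, e2]; simp
      omega
    simpa using this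
  have hΔ : 0 < 2 * a ^ 2 := by positivity
  have hinj := Finset.card_le_card_of_injOn (s := P)
    (t := Finset.range (n / w + 1) ×ˢ Finset.range (n * n / (2 * a ^ 2) + 1))
    (fun q => ((A q).card / w, posSum (A q) / (2 * a ^ 2))) ?_ ?_
  · simpa [Finset.card_product] using hinj
  · intro q _
    simp only [Finset.coe_product, Finset.coe_range, Set.mem_prod, Set.mem_Iio]
    constructor
    · have : (A q).card ≤ n := by simpa using Finset.card_le_univ (A q)
      have := Nat.div_le_div_right (c := w) this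
      omega
    · have := Nat.div_le_div_right (c := 2 * a ^ 2) (posSum_le (A q))
      omega
  · have key : ∀ q ∈ P, ∀ q' ∈ P, q < q' → (A q).card / w = (A q').card / w →
        posSum (A q) / (2 * a ^ 2) = posSum (A q') / (2 * a ^ 2) → False := by
      intro q hq q' hq' hlt e1 e2
      have b1 : (A q).card < (A q').card + w := by
        have h1 := Nat.div_add_mod (A q).card w
        have h2 := Nat.div_add_mod (A q').card w
        have h3 := Nat.mod_lt (A q).card hw
        rw [e1] at h1
        omega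
      have b2 : (A q').card < (A q).card + w := by
        have h1 := Nat.div_add_mod (A q).card w
        have h2 := Nat.div_add_mod (A q').card w
        have h3 := Nat.mod_lt (A q').card hw
        rw [e1] at h1
        omega
      have h3 := shift_step (hfree q hq q' hq' hlt) (hfar q hq q' hq' hlt.ne) b1 b2 h7 hn
      have h4 := Nat.div_add_mod (posSum (A q)) (2 * a ^ 2)
      have h5 := Nat.div_add_mod (posSum (A q')) (2 * a ^ 2)
      have h6 := Nat.mod_lt (posSum (A q)) hΔ
      rw [e2] at h4
      omega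
    intro q hq q' hq' heq
    simp only [Prod.mk.injEq] at heq
    by_contra hne
    rcases lt_or_gt_of_ne hne with h | h
    · exact key q hq q' hq' h heq.1 heq.2
    · exact key q' hq' q hq h heq.1.symm heq.2.symm

end Vale.Agent.Lib.P037
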