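import Mathlib
import Vale.Agent.Lib.P037.GenNumeric
import Vale.Agent.Lib.P037.IdExt
import Vale.Agent.Lib.P037.IdPack

/-!
# P037: polynomial removal for the identity pattern, and the combined statement
-/

namespace Vale.Agent.Lib.P037

open Finset

/-- the identity pattern (1,0),(0,1) -/
def idPattern : Fin 2 → Fin 2 → Bool := fun i j => decide (i = j)

def idX (n : ℕ) : Finset (Fin n) → Finset (Fin n) → Finset (Fin n) := fun R R' => R \ R'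
def idY (n : ℕ) : Finset (Fin n) → Finset (Fin n) → Finset (Fin n) := fun R R' => R' \ R

theorem id_PatOK : PatOK idPattern idX idY := by
  intro n A r1 r2 c1 c2
  simp only [idX, idY, rowSet, idPattern, Finset.mem_sdiff, Finset.mem_filter, Finset.mem_univ,
    true_and, Bool.not_eq_true]
  simp
  tauto

theorem id_DelOK (n : ℕ) : DelOK (idX n) (idY n) := by
  intro R R' D c
  simp only [idX, idY, Finset.mem_sdiff]
  tauto

theorem id_ExtOK (n : ℕ) : ExtOK (ρ := Fin n) (idX n) (idY n) := by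
  classical
  intro Q E hfree cov f g hfg
  set Q' : Set ℕ := {t | ∃ q ∈ Q, (q : ℕ) = t} with hQ'
  set E' : ℕ → Set (Fin n) := fun t => if h : t < n then ((E ⟨t, h⟩ : Finset (Fin n)) : Set (Fin n))
    else ∅ with hE'
  have hE'val : ∀ q : Fin n, E' (q : ℕ) = ((E q : Finset (Fin n)) : Set (Fin n)) := by
    intro q
    simp only [hE', q.2, dif_pos]
  have hmem : ∀ q ∈ Q, (q : ℕ) ∈ Q' := fun q hq => ⟨q, hq, rfl⟩
  have hex : ∀ q ∈ Q', ∀ q' ∈ Q', q < q' → Prec (E' q) (E' q') := by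
    rintro _ ⟨q, hq, rfl⟩ _ ⟨q', hq', rfl⟩ hlt c1 c2 hc a1 a2 a3 a4
    rw [hE'val] at a1 a2 a3 a4
    exact hfree q hq q' hq' (Fin.lt_def.mpr hlt) c1 c2 hc
      (Finset.mem_sdiff.mpr ⟨Finset.mem_coe.mp a1, fun h => a2 (Finset.mem_coe.mpr h)⟩)
      (Finset.mem_sdiff.mpr ⟨Finset.mem_coe.mp a4, fun h => a3 (Finset.mem_coe.mpr h)⟩)
  set S : Fin n → Set (Fin n) :=
    fun r => st Q' E' (E' (f r : ℕ) ∩ E' (g r : ℕ)) (f r : ℕ) (r : ℕ) with hS
  refine ⟨fun r => Finset.univ.filter (fun c => r ∈ cov ∧ c ∈ S r), ?_, ?_, ?_⟩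
  · intro r1 _ r2 _ h12 c1 c2 hc h1 h2
    simp only [idX, idY, Finset.mem_sdiff, Finset.mem_filter, Finset.mem_univ, true_and,
      not_and] at h1 h2
    obtain ⟨⟨hr1, hc1⟩, hc1'⟩ := h1
    obtain ⟨⟨hr2, hc2⟩, hc2'⟩ := h2
    obtain ⟨hf1, _, hfr1, _⟩ := hfg r1 hr1
    obtain ⟨hf2, _, hfr2, _⟩ := hfg r2 hr2
    have hp := st_prec hex (E' (f r1 : ℕ) ∩ E' (g r1 : ℕ)) (E' (f r2 : ℕ) ∩ E' (g r2 : ℕ))
      (hmem _ hf1) (hmem _ hf2) (t1 := (r1 : ℕ)) (Fin.le_def.mp hfr1) (r2 : ℕ)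
      (max_le (Fin.lt_def.mp h12).le (Fin.le_def.mp hfr2))
    exact hp c1 c2 hc hc1 (hc1' hr2) (hc2' hr1) hc2
  · intro r hr
    obtain ⟨hf1, hg1, hfr, hrg⟩ := hfg r hr
    obtain ⟨hb1, hb2⟩ := st_between hex (hmem _ hf1) (hmem _ hg1) (r : ℕ) (Fin.le_def.mp hfr)
      (Fin.le_def.mp hrg)
    constructor
    · intro c hc
      rw [Finset.mem_inter] at hc
      refine Finset.mem_filter.mpr ⟨Finset.mem_univ _, hr, hb1 ⟨?_, ?_⟩⟩
      · rw [hE'val]; exact Finset.mem_coe.mpr hc.1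
      · rw [hE'val]; exact Finset.mem_coe.mpr hc.2
    · intro c hc
      have h1 := hb2 (Finset.mem_filter.mp hc).2.2
      rw [hE'val, hE'val] at h1
      rcases h1 with h | h
      · exact Finset.mem_union_left _ (Finset.mem_coe.mp h)
      · exact Finset.mem_union_right _ (Finset.mem_coe.mp h)
  · intro r hr
    ext c
    simp [hr]

theorem id_pack_params (n t : ℕ) (ht : 1 ≤ t) (hn : 4704 * t ^ 2 ≤ n) :
    ∃ K, K + 1 ≤ (18816 * t ^ 2 + 1) * (6272 * t ^ 2 + 1) + 1 ∧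
      PackOK (ρ := Fin n) (idX n) (idY n) (n / (56 * t)) K := by
  obtain ⟨a, ha⟩ : ∃ a, a = n / (56 * t) := ⟨_, rfl⟩
  obtain ⟨w, hw⟩ : ∃ w, w = a / (84 * t) := ⟨_, rfl⟩
  have h56 : 0 < 56 * t := by omega
  have h84 : 0 < 84 * t := by omega
  have ha1 : 84 * t ≤ a := by
    rw [ha, Nat.le_div_iff_mul_le h56]
    calc 84 * t * (56 * t) = 4704 * t ^ 2 := by ring
      _ ≤ n := hn
  have hw1 : 1 ≤ w := by
    rw [hw]; exact (Nat.one_le_div_iff h84).mpr ha1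
  have ha0 : 1 ≤ a := by omega
  have hwa : 84 * t * w ≤ a := by rw [hw]; exact Nat.mul_div_le a _
  have hna : n ≤ 112 * t * a := by
    have := lt_div_succ_mul n (56 * t) h56
    rw [← ha] at this
    nlinarith
  have haw : a ≤ 168 * t * w := by
    have := lt_div_succ_mul a (84 * t) h84
    rw [← hw] at this
    nlinarith
  have h7 : 3 * (w * n) ≤ 4 * a ^ 2 := by
    calc 3 * (w * n) ≤ 3 * (w * (112 * t * a)) :=
          Nat.mul_le_mul_left _ (Nat.mul_le_mul_left _ hna)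
      _ = 4 * ((84 * t * w) * a) := by ring
      _ ≤ 4 * (a * a) := Nat.mul_le_mul_left _ (Nat.mul_le_mul_right _ hwa)
      _ = 4 * a ^ 2 := by ring
  refine ⟨(n / w + 1) * (n * n / (2 * a ^ 2) + 1), ?_, ?_⟩
  · have e1 : n / w ≤ 18816 * t ^ 2 := by
      apply Nat.div_le_of_le_mul
      calc n ≤ 112 * t * a := hna
        _ ≤ 112 * t * (168 * t * w) := Nat.mul_le_mul_left _ haw
        _ = w * (18816 * t ^ 2) := by ring
    have e2 : n * n / (2 * a ^ 2) ≤ 6272 * t ^ 2 := by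
      apply Nat.div_le_of_le_mul
      calc n * n ≤ (112 * t * a) * (112 * t * a) := Nat.mul_le_mul hna hna
        _ = 2 * a ^ 2 * (6272 * t ^ 2) := by ring
    exact Nat.succ_le_succ (Nat.mul_le_mul (Nat.succ_le_succ e1) (Nat.succ_le_succ e2))
  · rw [← ha]
    exact id_packing a w ha0 hw1 h7

theorem id_poly (t : ℕ) (ht : 1 ≤ t) :
    1024 * t ^ 2 * (56 * t) ^ 2 * ((18816 * t ^ 2 + 1) * (6272 * t ^ 2 + 1) + 1) ^ 5
      + (4704 * t ^ 2) ^ 4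
      ≤ (1024 * 56 ^ 2 * (18817 * 6273 + 1) ^ 5 + 4704 ^ 4) * t ^ 24 := by
  have hu : 1 ≤ t ^ 2 := Nat.one_le_pow _ _ ht
  have h1 : (18816 * t ^ 2 + 1) * (6272 * t ^ 2 + 1) + 1 ≤ (18817 * 6273 + 1) * t ^ 4 := by
    have e1 : 18816 * t ^ 2 + 1 ≤ 18817 * t ^ 2 := by omega
    have e2 : 6272 * t ^ 2 + 1 ≤ 6273 * t ^ 2 := by omega
    have e3 : 1 ≤ t ^ 4 := Nat.one_le_pow _ _ ht
    calc (18816 * t ^ 2 + 1) * (6272 * t ^ 2 + 1) + 1
        ≤ (18817 * t ^ 2) * (6273 * t ^ 2) + t ^ 4 :=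
          Nat.add_le_add (Nat.mul_le_mul e1 e2) e3
      _ = (18817 * 6273 + 1) * t ^ 4 := by ring
  have h2 : (4704 * t ^ 2) ^ 4 ≤ 4704 ^ 4 * t ^ 24 := by
    calc (4704 * t ^ 2) ^ 4 = 4704 ^ 4 * t ^ 8 := by ring
      _ ≤ 4704 ^ 4 * t ^ 24 := Nat.mul_le_mul_left _ (Nat.pow_le_pow_right ht (by norm_num))
  calc 1024 * t ^ 2 * (56 * t) ^ 2 * ((18816 * t ^ 2 + 1) * (6272 * t ^ 2 + 1) + 1) ^ 5
        + (4704 * t ^ 2) ^ 4
      ≤ 1024 * t ^ 2 * (56 * t) ^ 2 * ((18817 * 6273 + 1) * t ^ 4) ^ 5 + 4704 ^ 4 * t ^ 24 :=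
        Nat.add_le_add (Nat.mul_le_mul_left _ (Nat.pow_le_pow_left h1 5)) h2
    _ = (1024 * 56 ^ 2 * (18817 * 6273 + 1) ^ 5 + 4704 ^ 4) * t ^ 24 := by ring

theorem id_removal : PolyRemoval idPattern :=
  master idPattern idX idY id_PatOK id_DelOK id_ExtOK
    (fun t => (18816 * t ^ 2 + 1) * (6272 * t ^ 2 + 1) + 1) (fun t => 4704 * t ^ 2)
    (fun t => by nlinarith [sq_nonneg t, Nat.zero_le t, sq_nonneg (t - 1 : ℤ)])
    id_pack_params (1024 * 56 ^ 2 * (18817 * 6273 + 1) ^ 5 + 4704 ^ 4) 24 (by norm_num)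
    (by norm_num) id_poly

end Vale.Agent.Lib.P037
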