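import Mathlib
import Vale.Agent.Lib.P037.Final
import Vale.Agent.Lib.P037.IdFinal

/-!
# P037: all 2 x 2 patterns whose two rows differ and whose two columns differ
-/

namespace Vale.Agent.Lib.P037

/-- the pattern (0,1),(1,0) -/
def antiPattern : Fin 2 → Fin 2 → Bool := fun i j => decide (i ≠ j)

theorem anti_removal : PolyRemoval antiPattern := by
  have h := PolyRemoval.transform (sel false) (sel true) (fun b => b) (sel_sel _) (sel_sel _)
    (by simp) (sel_mono _) (sel_mono _) _ id_removal
  have heq : Tr (sel false) (sel true) (fun b => b) idPattern = antiPattern := by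
    funext i j
    fin_cases i <;> fin_cases j <;> rfl
  rwa [heq] at h

theorem classify (H : Fin 2 → Fin 2 → Bool) :
    H 0 = H 1 ∨ (fun i => H i 0) = (fun i => H i 1) ∨ (∃ i0 j0 v, H = oddPattern i0 j0 v) ∨
      H = idPattern ∨ H = antiPattern := by
  rcases hA : H 0 0 with _ | _ <;> rcases hB : H 0 1 with _ | _ <;>
  rcases hC : H 1 0 with _ | _ <;> rcases hD : H 1 1 with _ | _
  all_goals first
    | (left; funext j; fin_cases j <;> simp [*]; done)
    | (right; left; funext i; fin_cases i <;> simp [*]; done)
    | (right; right; right; left; funext i j; fin_cases i <;> fin_cases j <;>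
        simp [idPattern, *]; done)
    | (right; right; right; right; funext i j; fin_cases i <;> fin_cases j <;>
        simp [antiPattern, *]; done)
    | (right; right; left; refine ⟨0, 0, true, ?_⟩; funext i j; fin_cases i <;> fin_cases j <;>
        simp [oddPattern, *]; done)
    | (right; right; left; refine ⟨0, 1, true, ?_⟩; funext i j; fin_cases i <;> fin_cases j <;>
        simp [oddPattern, *]; done)
    | (right; right; left; refine ⟨1, 0, true, ?_⟩; funext i j; fin_cases i <;> fin_cases j <;>
        simp [oddPattern, *]; done)
    | (right; right; left; refine ⟨1, 1, true, ?_⟩; funext i j; fin_cases i <;> fin_cases j <;>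
        simp [oddPattern, *]; done)
    | (right; right; left; refine ⟨0, 0, false, ?_⟩; funext i j; fin_cases i <;> fin_cases j <;>
        simp [oddPattern, *]; done)
    | (right; right; left; refine ⟨0, 1, false, ?_⟩; funext i j; fin_cases i <;> fin_cases j <;>
        simp [oddPattern, *]; done)
    | (right; right; left; refine ⟨1, 0, false, ?_⟩; funext i j; fin_cases i <;> fin_cases j <;>
        simp [oddPattern, *]; done)
    | (right; right; left; refine ⟨1, 1, false, ?_⟩; funext i j; fin_cases i <;> fin_cases j <;>
        simp [oddPattern, *]; done)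

theorem all_noninvariant (H : Fin 2 → Fin 2 → Bool) (hr : H 0 ≠ H 1)
    (hc : (fun i => H i 0) ≠ (fun i => H i 1)) : PolyRemoval H := by
  rcases classify H with h | h | ⟨i0, j0, v, h⟩ | h | h
  · exact absurd h hr
  · exact absurd h hc
  · rw [h]; exact all_odd i0 j0 v
  · rw [h]; exact id_removal
  · rw [h]; exact anti_removal

end Vale.Agent.Lib.P037
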