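import Mathlib
import Vale.Agent.Lib.P037.Combined

/-!
# P037: the six 2 x 2 patterns with two equal rows or two equal columns

Direct proofs of the polynomial removal bound for the constant patterns and for the patterns
(1,1),(0,0) etc.; together with `all_noninvariant` this covers all sixteen 2 x 2 patterns.
-/

namespace Vale.Agent.Lib.P037

open Finset

/-- the copies of a 2 x 2 pattern written as quadruples -/
def quads {n : ℕ} (H : Fin 2 → Fin 2 → Bool) (A : Fin n → Fin n → Bool) :
    Finset ((Fin n × Fin n) × (Fin n × Fin n)) :=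
  Finset.univ.filter fun q => q.1.1 < q.1.2 ∧ q.2.1 < q.2.2 ∧
    A q.1.1 q.2.1 = H 0 0 ∧ A q.1.1 q.2.2 = H 0 1 ∧ A q.1.2 q.2.1 = H 1 0 ∧ A q.1.2 q.2.2 = H 1 1

theorem quads_le_copies {n : ℕ} (H : Fin 2 → Fin 2 → Bool) (A : Fin n → Fin n → Bool) :
    (quads H A).card ≤ (copies H A).card := by
  apply Finset.card_le_card_of_injOn (fun q => (![q.1.1, q.1.2], ![q.2.1, q.2.2]))
  · intro q hq
    have hq' := (Finset.mem_filter.mp (Finset.mem_coe.mp hq)).2
    obtain ⟨h1, h2, h3, h4, h5, h6⟩ := hq'
    refine Finset.mem_coe.mpr (mem_copies.mpr ⟨strictMono_pair h1, strictMono_pair h2, ?_⟩)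
    intro i j
    fin_cases i <;> fin_cases j <;> simp [h3, h4, h5, h6]
  · intro p _ q _ hpq
    simp only [Prod.mk.injEq] at hpq
    have h1 := congrFun hpq.1 0
    have h2 := congrFun hpq.1 1
    have h3 := congrFun hpq.2 0
    have h4 := congrFun hpq.2 1
    simp at h1 h2 h3 h4
    exact Prod.ext (Prod.ext h1 h2) (Prod.ext h3 h4)

theorem hamming_self {n : ℕ} (A : Fin n → Fin n → Bool) : hamming A A = 0 := by
  unfold hamming
  simp

/-- transposition -/
theorem copies_transpose_le {k n : ℕ} (H : Fin k → Fin k → Bool) (A : Fin n → Fin n → Bool) :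
    (copies (fun i j => H j i) (fun i j => A j i)).card ≤ (copies H A).card := by
  apply Finset.card_le_card_of_injOn (fun p => (p.2, p.1))
  · intro p hp
    have hp' := mem_copies.mp (Finset.mem_coe.mp hp)
    exact Finset.mem_coe.mpr (mem_copies.mpr ⟨hp'.2.1, hp'.1, fun i j => hp'.2.2 j i⟩)
  · intro p _ q _ hpq
    simp only [Prod.mk.injEq] at hpq
    exact Prod.ext hpq.2 hpq.1

theorem hamming_transpose_le {n : ℕ} (A B : Fin n → Fin n → Bool) :
    hamming A (fun i j => B j i) ≤ hamming (fun i j => A j i) B := by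
  unfold hamming
  apply Finset.card_le_card_of_injOn (fun p => (p.2, p.1))
  · intro p hp
    have hp' := (Finset.mem_filter.mp (Finset.mem_coe.mp hp)).2
    exact Finset.mem_coe.mpr (Finset.mem_filter.mpr ⟨Finset.mem_univ _, hp'⟩)
  · intro p _ q _ hpq
    simp only [Prod.mk.injEq] at hpq
    exact Prod.ext hpq.2 hpq.1

theorem PolyRemoval.transpose {k : ℕ} (H : Fin k → Fin k → Bool) (h : PolyRemoval H) :
    PolyRemoval (fun i j => H j i) := by
  obtain ⟨c, hc, C, hC, hmain⟩ := h
  refine ⟨c, hc, C, hC, ?_⟩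
  intro n ε A hε0 hε1 hfar
  have h1 := hmain n ε (fun i j => A j i) hε0 hε1 ?_
  · refine h1.trans ?_
    have h2 := copies_transpose_le (fun i j => H j i) A
    exact_mod_cast h2
  · intro B hB
    have h2 := copies_transpose_le H B
    rw [hB, Finset.card_empty, Nat.le_zero, Finset.card_eq_zero] at h2
    refine (hfar _ h2).trans ?_
    exact_mod_cast hamming_transpose_le A B

/-- reduction to large `n` -/
theorem polyRemoval_of_large (H : Fin 2 → Fin 2 → Bool)
    (h : ∀ (n : ℕ) (ε : ℝ) (A : Fin n → Fin n → Bool), 0 < ε → ε < 1 → 8 ≤ ε ^ 2 * (n : ℝ) →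
      (∀ B : Fin n → Fin n → Bool, copies H B = ∅ → ε * (n : ℝ) ^ 2 ≤ (hamming A B : ℝ)) →
      ε ^ 4 * (n : ℝ) ^ 4 / 64 ≤ ((copies H A).card : ℝ)) : PolyRemoval H := by
  refine ⟨1 / 4096, by norm_num, 8, by norm_num, ?_⟩
  intro n ε A h0 h1 hfar
  have hn0 : (0 : ℝ) ≤ (n : ℝ) := Nat.cast_nonneg n
  by_cases hbig : 8 ≤ ε ^ 2 * (n : ℝ)
  · refine le_trans ?_ (h n ε A h0 h1 hbig hfar)
    have h4 : ε ^ 4 ≤ 1 := pow_le_one₀ h0.le h1.le
    have h5 : 0 ≤ ε ^ 4 * (n : ℝ) ^ 4 := by positivity
    have h6 : ε ^ 8 = ε ^ 4 * ε ^ 4 := by ring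
    have h7 : ε ^ 4 * (ε ^ 4 * (n : ℝ) ^ 4) ≤ 1 * (ε ^ 4 * (n : ℝ) ^ 4) :=
      mul_le_mul_of_nonneg_right h4 h5
    norm_num
    rw [h6]
    nlinarith
  · push Not at hbig
    rcases Nat.eq_zero_or_pos n with hn | hn
    · subst hn
      simp
    · have hne : copies H A ≠ ∅ := by
        intro he
        have h2 := hfar A he
        rw [hamming_self] at h2
        have h3 : (0 : ℝ) < (n : ℝ) := by exact_mod_cast hn
        have h4 : 0 < ε * (n : ℝ) ^ 2 := by positivity
        simp at h2
        linarith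
      have hcard : (1 : ℝ) ≤ ((copies H A).card : ℝ) := by
        have := Finset.card_pos.mpr (Finset.nonempty_iff_ne_empty.mpr hne)
        exact_mod_cast this
      refine le_trans ?_ hcard
      have h2 : 0 ≤ ε ^ 2 * (n : ℝ) := by positivity
      have h3 : (ε ^ 2 * (n : ℝ)) ^ 4 ≤ 8 ^ 4 := pow_le_pow_left₀ h2 hbig.le 4
      have h4 : (ε ^ 2 * (n : ℝ)) ^ 4 = ε ^ 8 * (n : ℝ) ^ (2 * 2) := by ring
      rw [h4] at h3
      norm_num at h3 ⊢
      linarith


/-- number of increasing pairs inside a set -/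
theorem sq_le_pairSet {n : ℕ} (D : Finset (Fin n)) :
    D.card * D.card ≤ 2 * (pairSet D D).card + D.card := by
  classical
  have hsub : D ×ˢ D ⊆ (pairSet D D ∪ (pairSet D D).image Prod.swap) ∪ D.image (fun x => (x, x)) := by
    intro p hp
    rw [Finset.mem_product] at hp
    rcases lt_trichotomy p.1 p.2 with h | h | h
    · exact Finset.mem_union_left _ (Finset.mem_union_left _ (mem_pairSet.mpr ⟨hp.1, hp.2, h⟩))
    · refine Finset.mem_union_right _ (Finset.mem_image.mpr ⟨p.1, hp.1, ?_⟩)
      exact Prod.ext rfl h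
    · refine Finset.mem_union_left _ (Finset.mem_union_right _ (Finset.mem_image.mpr
        ⟨(p.2, p.1), mem_pairSet.mpr ⟨hp.2, hp.1, h⟩, rfl⟩))
  have h1 := Finset.card_le_card hsub
  rw [Finset.card_product] at h1
  have h2 := Finset.card_union_le (pairSet D D ∪ (pairSet D D).image Prod.swap)
    (D.image (fun x => (x, x)))
  have h3 := Finset.card_union_le (pairSet D D) ((pairSet D D).image Prod.swap)
  have h4 : ((pairSet D D).image Prod.swap).card ≤ (pairSet D D).card := Finset.card_image_le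
  have h5 : (D.image (fun x => (x, x))).card ≤ D.card := Finset.card_image_le
  omega

/-- Cauchy-Schwarz for a family of sets -/
theorem family_count {ι : Type*} [Fintype ι] {n : ℕ} (D : ι → Finset (Fin n)) (M : ℝ)
    (hM : (Fintype.card ι : ℝ) ≤ M) :
    (∑ i, ((D i).card : ℝ)) ^ 2 ≤
      M * (2 * ∑ i, ((pairSet (D i) (D i)).card : ℝ) + ∑ i, ((D i).card : ℝ)) := by
  have h1 : (∑ i, ((D i).card : ℝ)) ^ 2 ≤
      (Fintype.card ι : ℝ) * ∑ i, ((D i).card : ℝ) ^ 2 := by
    have := sq_sum_le_card_mul_sum_sq (s := (Finset.univ : Finset ι))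
      (f := fun i => ((D i).card : ℝ))
    simpa using this
  have h2 : ∑ i, ((D i).card : ℝ) ^ 2 ≤
      2 * ∑ i, ((pairSet (D i) (D i)).card : ℝ) + ∑ i, ((D i).card : ℝ) := by
    rw [Finset.mul_sum, ← Finset.sum_add_distrib]
    apply Finset.sum_le_sum
    intro i _
    have := sq_le_pairSet (D i)
    have h3 : ((D i).card : ℝ) * ((D i).card : ℝ) ≤
        2 * ((pairSet (D i) (D i)).card : ℝ) + ((D i).card : ℝ) := by exact_mod_cast this
    nlinarith
  have h0 : (0 : ℝ) ≤ ∑ i, ((D i).card : ℝ) ^ 2 := Finset.sum_nonneg (fun i _ => by positivity)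
  calc (∑ i, ((D i).card : ℝ)) ^ 2 ≤ (Fintype.card ι : ℝ) * ∑ i, ((D i).card : ℝ) ^ 2 := h1
    _ ≤ M * ∑ i, ((D i).card : ℝ) ^ 2 := mul_le_mul_of_nonneg_right hM h0
    _ ≤ _ := mul_le_mul_of_nonneg_left h2 (le_trans (Nat.cast_nonneg _) hM)

/-- the final numerical step -/
theorem final_count (n ε T N : ℝ) (hn : 0 < n) (h0 : 0 < ε) (hbig : 8 ≤ ε ^ 2 * n)
    (hT : ε ^ 2 * n ^ 3 / 4 ≤ T) (hN : T ^ 2 ≤ n ^ 2 * (2 * N + T)) :
    ε ^ 4 * n ^ 4 / 64 ≤ N := by
  have hT0 : 0 < T := lt_of_lt_of_le (by positivity) hT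
  have h1 : T * (ε ^ 2 * n ^ 3 / 4) ≤ T ^ 2 := by nlinarith
  have h2 : T * (ε ^ 2 * n ^ 3 / 4) ≤ n ^ 2 * (2 * N + T) := h1.trans hN
  have h3 : n ^ 2 * (T * (ε ^ 2 * n / 4)) ≤ n ^ 2 * (2 * N + T) := by
    have : n ^ 2 * (T * (ε ^ 2 * n / 4)) = T * (ε ^ 2 * n ^ 3 / 4) := by ring
    rw [this]; exact h2
  have h4 : T * (ε ^ 2 * n / 4) ≤ 2 * N + T := le_of_mul_le_mul_left h3 (by positivity)
  have h5 : T * (ε ^ 2 * n / 8) ≤ 2 * N := by nlinarith
  have h6 : (ε ^ 2 * n ^ 3 / 4) * (ε ^ 2 * n / 8) ≤ T * (ε ^ 2 * n / 8) :=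
    mul_le_mul_of_nonneg_right hT (by positivity)
  have h7 : (ε ^ 2 * n ^ 3 / 4) * (ε ^ 2 * n / 8) = ε ^ 4 * n ^ 4 / 32 := by ring
  linarith


theorem card_val_lt {n k : ℕ} (hk : k ≤ n) :
    (Finset.univ.filter (fun r : Fin n => r.val < k)).card = k := by
  have h : (Finset.univ.filter (fun r : Fin n => r.val < k)).map Fin.valEmbedding =
      Finset.range k := by
    ext x
    simp only [Finset.mem_map, Finset.mem_filter, Finset.mem_univ, true_and,
      Fin.valEmbedding_apply, Finset.mem_range]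
    constructor
    · rintro ⟨r, hr, rfl⟩
      exact hr
    · intro hx
      exact ⟨⟨x, by omega⟩, hx, rfl⟩
  rw [← Finset.card_map Fin.valEmbedding, h, Finset.card_range]

theorem hamming_eq_sum_col {n : ℕ} (A B : Fin n → Fin n → Bool) :
    hamming A B = ∑ c, (Finset.univ.filter (fun r => A r c ≠ B r c)).card := by
  unfold hamming
  rw [Finset.card_filter, Fintype.sum_prod_type_right]
  apply Finset.sum_congr rfl
  intro c _
  rw [Finset.card_filter]

/-- the pattern (1,1),(0,0) -/
def rowPattern : Fin 2 → Fin 2 → Bool := fun i _ => decide (i = 0)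

section row

variable {n : ℕ} (A : Fin n → Fin n → Bool)

/-- number of zeros of a column -/
def zc (c : Fin n) : ℕ := (Finset.univ.filter (fun r => A r c = false)).card

/-- misplaced ones -/
def ob (c : Fin n) : Finset (Fin n) :=
  Finset.univ.filter (fun r => r.val < zc A c ∧ A r c = true)

/-- misplaced zeros -/
def zb (c : Fin n) : Finset (Fin n) :=
  Finset.univ.filter (fun r => zc A c ≤ r.val ∧ A r c = false)

theorem zc_le (c : Fin n) : zc A c ≤ n := by
  unfold zc
  exact (Finset.card_filter_le _ _).trans (by simp)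

theorem ob_card_eq (c : Fin n) : (ob A c).card = (zb A c).card := by
  classical
  have h1 := card_val_lt (zc_le A c)
  have h2 := Finset.card_filter_add_card_filter_not
    (s := Finset.univ.filter (fun r : Fin n => r.val < zc A c)) (fun r => A r c = true)
  have h3 := Finset.card_filter_add_card_filter_not
    (s := Finset.univ.filter (fun r : Fin n => A r c = false)) (fun r => r.val < zc A c)
  rw [Finset.filter_filter, Finset.filter_filter] at h2 h3
  have h4 : (Finset.univ.filter (fun r : Fin n => r.val < zc A c ∧ ¬ A r c = true)).card =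
      (Finset.univ.filter (fun r : Fin n => A r c = false ∧ r.val < zc A c)).card := by
    congr 1
    ext r
    simp only [Finset.mem_filter, Finset.mem_univ, true_and, Bool.not_eq_true]
    tauto
  have h5 : (Finset.univ.filter (fun r : Fin n => A r c = false ∧ ¬ r.val < zc A c)).card =
      (zb A c).card := by
    congr 1
    ext r
    simp only [zb, Finset.mem_filter, Finset.mem_univ, true_and, not_lt]
    tauto
  have h6 : (Finset.univ.filter (fun r : Fin n => A r c = false)).card = zc A c := rfl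
  have h7 : (Finset.univ.filter (fun r : Fin n => r.val < zc A c ∧ A r c = true)).card =
      (ob A c).card := rfl
  omega

/-- the column-sorted matrix -/
def sorted : Fin n → Fin n → Bool := fun r c => decide (zc A c ≤ r.val)

theorem sorted_free : copies rowPattern (sorted A) = ∅ := by
  rw [Finset.eq_empty_iff_forall_notMem]
  intro p hp
  obtain ⟨h1, _, h3⟩ := mem_copies.mp hp
  have h4 := h3 0 0
  have h5 := h3 1 0
  simp only [sorted, rowPattern] at h4 h5
  have h6 : p.1 0 < p.1 1 := h1 (by decide)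
  have h7 : (p.1 0).val < (p.1 1).val := h6
  simp at h4 h5
  omega

theorem hamming_sorted_le : hamming A (sorted A) ≤ ∑ c, 2 * (ob A c).card := by
  classical
  rw [hamming_eq_sum_col]
  apply Finset.sum_le_sum
  intro c _
  have hsub : Finset.univ.filter (fun r => A r c ≠ sorted A r c) ⊆ ob A c ∪ zb A c := by
    intro r hr
    have hr' := (Finset.mem_filter.mp hr).2
    simp only [sorted] at hr'
    by_cases h : zc A c ≤ r.val
    · refine Finset.mem_union_right _ (Finset.mem_filter.mpr ⟨Finset.mem_univ _, h, ?_⟩)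
      simp only [h, decide_true] at hr'
      simpa using hr'
    · refine Finset.mem_union_left _ (Finset.mem_filter.mpr ⟨Finset.mem_univ _, not_le.mp h, ?_⟩)
      simp only [h, decide_false] at hr'
      simpa using hr'
  have h1 := (Finset.card_le_card hsub).trans (Finset.card_union_le _ _)
  have h2 := ob_card_eq A c
  omega

/-- columns in which row `p.1` has a one and the later row `p.2` a zero -/
def dset (p : Fin n × Fin n) : Finset (Fin n) :=
  if p.1 < p.2 then Finset.univ.filter (fun c => A p.1 c = true ∧ A p.2 c = false) else ∅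

theorem mem_dset {p : Fin n × Fin n} {c : Fin n} :
    c ∈ dset A p ↔ p.1 < p.2 ∧ A p.1 c = true ∧ A p.2 c = false := by
  unfold dset
  split_ifs with h
  · simp [h]
  · simp [h]

theorem sum_pairSet_dset_le :
    ∑ p, (pairSet (dset A p) (dset A p)).card ≤ (quads rowPattern A).card := by
  classical
  rw [← Finset.card_sigma]
  apply Finset.card_le_card_of_injOn (fun x => (x.1, x.2))
  · intro x hx
    have hx' := (Finset.mem_sigma.mp (Finset.mem_coe.mp hx)).2
    obtain ⟨h1, h2, h3⟩ := mem_pairSet.mp hx'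
    obtain ⟨h4, h5, h6⟩ := (mem_dset A).mp h1
    obtain ⟨_, h7, h8⟩ := (mem_dset A).mp h2
    refine Finset.mem_coe.mpr (Finset.mem_filter.mpr ⟨Finset.mem_univ _, h4, h3, ?_⟩)
    simp [rowPattern, h5, h6, h7, h8]
  · intro x _ y _ hxy
    simp only [Prod.mk.injEq] at hxy
    exact Sigma.ext hxy.1 (heq_of_eq hxy.2)

theorem sum_sq_ob_le : ∑ c, (ob A c).card * (ob A c).card ≤ ∑ p, (dset A p).card := by
  classical
  have h1 : ∑ c, (ob A c).card * (ob A c).card = ∑ c, (ob A c ×ˢ zb A c).card := by
    apply Finset.sum_congr rfl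
    intro c _
    rw [Finset.card_product, ← ob_card_eq]
  rw [h1, ← Finset.card_sigma, ← Finset.card_sigma]
  apply Finset.card_le_card_of_injOn
    (fun x => (⟨x.2, x.1⟩ : Σ _ : Fin n × Fin n, Fin n))
  · intro x hx
    have hx' := (Finset.mem_sigma.mp (Finset.mem_coe.mp hx)).2
    obtain ⟨h2, h3⟩ := Finset.mem_product.mp hx'
    obtain ⟨_, h4, h5⟩ := Finset.mem_filter.mp h2
    obtain ⟨_, h6, h7⟩ := Finset.mem_filter.mp h3
    refine Finset.mem_coe.mpr (Finset.mem_sigma.mpr ⟨Finset.mem_univ _, ?_⟩)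
    refine (mem_dset A).mpr ⟨?_, h5, h7⟩
    show (x.2.1).val < (x.2.2).val
    omega
  · intro x _ y _ hxy
    simp only [Sigma.mk.injEq, heq_eq_eq] at hxy
    exact Sigma.ext hxy.2 (heq_of_eq hxy.1)

end row


theorem row_large (n : ℕ) (ε : ℝ) (A : Fin n → Fin n → Bool) (h0 : 0 < ε) (_h1 : ε < 1)
    (hbig : 8 ≤ ε ^ 2 * (n : ℝ))
    (hfar : ∀ B : Fin n → Fin n → Bool, copies rowPattern B = ∅ →
      ε * (n : ℝ) ^ 2 ≤ (hamming A B : ℝ)) :
    ε ^ 4 * (n : ℝ) ^ 4 / 64 ≤ ((copies rowPattern A).card : ℝ) := by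
  have hn : (0 : ℝ) < (n : ℝ) := by
    by_contra hcon
    have h2 : (n : ℝ) ≤ 0 := not_lt.mp hcon
    have h3 : ε ^ 2 * (n : ℝ) ≤ 0 := mul_nonpos_of_nonneg_of_nonpos (by positivity) h2
    linarith
  set S : ℝ := ∑ c, ((ob A c).card : ℝ) with hS
  set T : ℝ := ∑ p, ((dset A p).card : ℝ) with hT
  have hS1 : ε * (n : ℝ) ^ 2 ≤ 2 * S := by
    refine (hfar _ (sorted_free A)).trans ?_
    have := hamming_sorted_le A
    have h2 : ((hamming A (sorted A) : ℕ) : ℝ) ≤ ((∑ c, 2 * (ob A c).card : ℕ) : ℝ) := by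
      exact_mod_cast this
    refine h2.trans (le_of_eq ?_)
    rw [hS, Finset.mul_sum]
    push_cast
    rfl
  have hS2 : S ^ 2 ≤ (n : ℝ) * ∑ c, ((ob A c).card : ℝ) ^ 2 := by
    have := sq_sum_le_card_mul_sum_sq (s := (Finset.univ : Finset (Fin n)))
      (f := fun c => ((ob A c).card : ℝ))
    simpa using this
  have hT1 : ∑ c, ((ob A c).card : ℝ) ^ 2 ≤ T := by
    have := sum_sq_ob_le A
    have h2 : ((∑ c, (ob A c).card * (ob A c).card : ℕ) : ℝ) ≤ ((∑ p, (dset A p).card : ℕ) : ℝ) := by
      exact_mod_cast this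
    push_cast at h2
    refine le_trans (le_of_eq ?_) h2
    apply Finset.sum_congr rfl
    intro c _
    ring
  have hT2 : ε ^ 2 * (n : ℝ) ^ 3 / 4 ≤ T := by
    have h2 : S ^ 2 ≤ (n : ℝ) * T := hS2.trans (mul_le_mul_of_nonneg_left hT1 hn.le)
    have h3 : (ε * (n : ℝ) ^ 2) ^ 2 ≤ (2 * S) ^ 2 := pow_le_pow_left₀ (by positivity) hS1 2
    have h4 : (n : ℝ) * (ε ^ 2 * (n : ℝ) ^ 3 / 4) ≤ (n : ℝ) * T := by nlinarith
    exact le_of_mul_le_mul_left h4 hn
  have hN : T ^ 2 ≤ (n : ℝ) ^ 2 * (2 * ((copies rowPattern A).card : ℝ) + T) := by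
    have h2 := family_count (dset A) ((n : ℝ) ^ 2) (by simp [sq])
    refine h2.trans ?_
    apply mul_le_mul_of_nonneg_left _ (by positivity)
    have h3 := (sum_pairSet_dset_le A).trans (quads_le_copies rowPattern A)
    have h4 : ((∑ p, (pairSet (dset A p) (dset A p)).card : ℕ) : ℝ) ≤
        ((copies rowPattern A).card : ℝ) := by exact_mod_cast h3
    push_cast at h4
    linarith
  exact final_count (n : ℝ) ε T _ hn h0 hbig hT2 hN

theorem row_removal : PolyRemoval rowPattern := polyRemoval_of_large _ row_large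


/-- the pattern (1,1),(1,1) -/
def onePattern : Fin 2 → Fin 2 → Bool := fun _ _ => true

section one

variable {n : ℕ} (A : Fin n → Fin n → Bool)

/-- the ones of a column -/
def colSet (c : Fin n) : Finset (Fin n) := Finset.univ.filter (fun r => A r c = true)

theorem zero_free : copies onePattern (fun _ _ => false : Fin n → Fin n → Bool) = ∅ := by
  rw [Finset.eq_empty_iff_forall_notMem]
  intro p hp
  obtain ⟨_, _, h3⟩ := mem_copies.mp hp
  have h4 := h3 0 0
  simp [onePattern] at h4

theorem hamming_zero_le : hamming A (fun _ _ => false) ≤ ∑ c, (colSet A c).card := by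
  rw [hamming_eq_sum_col]
  apply Finset.sum_le_sum
  intro c _
  apply Finset.card_le_card
  intro r hr
  have hr' := (Finset.mem_filter.mp hr).2
  exact Finset.mem_filter.mpr ⟨Finset.mem_univ _, by simpa using hr'⟩

/-- columns in which both rows have a one -/
def eset (p : Fin n × Fin n) : Finset (Fin n) :=
  if p.1 < p.2 then Finset.univ.filter (fun c => A p.1 c = true ∧ A p.2 c = true) else ∅

theorem mem_eset {p : Fin n × Fin n} {c : Fin n} :
    c ∈ eset A p ↔ p.1 < p.2 ∧ A p.1 c = true ∧ A p.2 c = true := by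
  unfold eset
  split_ifs with h
  · simp [h]
  · simp [h]

theorem sum_pairSet_eset_le :
    ∑ p, (pairSet (eset A p) (eset A p)).card ≤ (quads onePattern A).card := by
  classical
  rw [← Finset.card_sigma]
  apply Finset.card_le_card_of_injOn (fun x => (x.1, x.2))
  · intro x hx
    have hx' := (Finset.mem_sigma.mp (Finset.mem_coe.mp hx)).2
    obtain ⟨h1, h2, h3⟩ := mem_pairSet.mp hx'
    obtain ⟨h4, h5, h6⟩ := (mem_eset A).mp h1
    obtain ⟨_, h7, h8⟩ := (mem_eset A).mp h2
    refine Finset.mem_coe.mpr (Finset.mem_filter.mpr ⟨Finset.mem_univ _, h4, h3, ?_⟩)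
    simp [onePattern, h5, h6, h7, h8]
  · intro x _ y _ hxy
    simp only [Prod.mk.injEq] at hxy
    exact Sigma.ext hxy.1 (heq_of_eq hxy.2)

theorem sum_col_pairs_le :
    ∑ c, (pairSet (colSet A c) (colSet A c)).card ≤ ∑ p, (eset A p).card := by
  classical
  rw [← Finset.card_sigma, ← Finset.card_sigma]
  apply Finset.card_le_card_of_injOn
    (fun x => (⟨x.2, x.1⟩ : Σ _ : Fin n × Fin n, Fin n))
  · intro x hx
    have hx' := (Finset.mem_sigma.mp (Finset.mem_coe.mp hx)).2
    obtain ⟨h2, h3, h4⟩ := mem_pairSet.mp hx'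
    have h5 := (Finset.mem_filter.mp h2).2
    have h6 := (Finset.mem_filter.mp h3).2
    refine Finset.mem_coe.mpr (Finset.mem_sigma.mpr ⟨Finset.mem_univ _, ?_⟩)
    exact (mem_eset A).mpr ⟨h4, h5, h6⟩
  · intro x _ y _ hxy
    simp only [Sigma.mk.injEq, heq_eq_eq] at hxy
    exact Sigma.ext hxy.2 (heq_of_eq hxy.1)

end one

theorem one_large (n : ℕ) (ε : ℝ) (A : Fin n → Fin n → Bool) (h0 : 0 < ε) (h1 : ε < 1)
    (hbig : 8 ≤ ε ^ 2 * (n : ℝ))
    (hfar : ∀ B : Fin n → Fin n → Bool, copies onePattern B = ∅ →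
      ε * (n : ℝ) ^ 2 ≤ (hamming A B : ℝ)) :
    ε ^ 4 * (n : ℝ) ^ 4 / 64 ≤ ((copies onePattern A).card : ℝ) := by
  have hn : (0 : ℝ) < (n : ℝ) := by
    by_contra hcon
    have h2 : (n : ℝ) ≤ 0 := not_lt.mp hcon
    have h3 : ε ^ 2 * (n : ℝ) ≤ 0 := mul_nonpos_of_nonneg_of_nonpos (by positivity) h2
    linarith
  set m : ℝ := ∑ c, ((colSet A c).card : ℝ) with hm
  set T : ℝ := ∑ p, ((eset A p).card : ℝ) with hT
  have hm1 : ε * (n : ℝ) ^ 2 ≤ m := by
    refine (hfar _ zero_free).trans ?_
    have := hamming_zero_le A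
    have h2 : ((hamming A (fun _ _ => false) : ℕ) : ℝ) ≤ ((∑ c, (colSet A c).card : ℕ) : ℝ) := by
      exact_mod_cast this
    refine h2.trans (le_of_eq ?_)
    rw [hm]
    push_cast
    rfl
  have hm2 : m ^ 2 ≤ (n : ℝ) * (2 * T + m) := by
    have h2 := family_count (colSet A) (n : ℝ) (by simp)
    refine h2.trans ?_
    apply mul_le_mul_of_nonneg_left _ hn.le
    have h3 := sum_col_pairs_le A
    have h4 : ((∑ c, (pairSet (colSet A c) (colSet A c)).card : ℕ) : ℝ) ≤
        ((∑ p, (eset A p).card : ℕ) : ℝ) := by exact_mod_cast h3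
    push_cast at h4
    linarith
  have hεn : 2 ≤ ε * (n : ℝ) := by
    have h2 : ε ^ 2 * (n : ℝ) ≤ ε * (n : ℝ) := by
      apply mul_le_mul_of_nonneg_right _ hn.le
      nlinarith
    linarith
  have hT2 : ε ^ 2 * (n : ℝ) ^ 3 / 4 ≤ T := by
    have h2 : m * (m - (n : ℝ)) ≤ 2 * (n : ℝ) * T := by nlinarith
    have h3 : (n : ℝ) * (ε * (n : ℝ) / 2) ≤ m - (n : ℝ) := by nlinarith
    have h4 : (ε * (n : ℝ) ^ 2) * ((n : ℝ) * (ε * (n : ℝ) / 2)) ≤ m * (m - (n : ℝ)) :=
      mul_le_mul hm1 h3 (by positivity) (le_trans (by positivity) hm1)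
    have h5 : (2 * (n : ℝ)) * (ε ^ 2 * (n : ℝ) ^ 3 / 4) ≤ (2 * (n : ℝ)) * T := by nlinarith
    exact le_of_mul_le_mul_left h5 (by positivity)
  have hN : T ^ 2 ≤ (n : ℝ) ^ 2 * (2 * ((copies onePattern A).card : ℝ) + T) := by
    have h2 := family_count (eset A) ((n : ℝ) ^ 2) (by simp [sq])
    refine h2.trans ?_
    apply mul_le_mul_of_nonneg_left _ (by positivity)
    have h3 := (sum_pairSet_eset_le A).trans (quads_le_copies onePattern A)
    have h4 : ((∑ p, (pairSet (eset A p) (eset A p)).card : ℕ) : ℝ) ≤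
        ((copies onePattern A).card : ℝ) := by exact_mod_cast h3
    push_cast at h4
    linarith
  exact final_count (n : ℝ) ε T _ hn h0 hbig hT2 hN

theorem one_removal : PolyRemoval onePattern := polyRemoval_of_large _ one_large

/-- all sixteen 2 x 2 patterns -/
theorem all_two_by_two (H : Fin 2 → Fin 2 → Bool) : PolyRemoval H := by
  by_cases hr : H 0 = H 1
  · by_cases hc : (fun i => H i 0) = (fun i => H i 1)
    · -- constant
      have h00 : H 0 1 = H 0 0 := (congrFun hc 0).symm
      have h10 : H 1 0 = H 0 0 := (congrFun hr 0).symm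
      have h11 : H 1 1 = H 0 0 := by rw [← congrFun hr 1, h00]
      rcases hv : H 0 0 with _ | _
      · have h := PolyRemoval.transform (sel true) (sel true) (fun b => !b) (sel_sel _) (sel_sel _)
          (by simp) (sel_mono _) (sel_mono _) _ one_removal
        have heq : Tr (sel true) (sel true) (fun b => !b) onePattern = H := by
          funext i j
          fin_cases i <;> fin_cases j <;> simp [Tr, onePattern, *]
        rwa [heq] at h
      · have heq : onePattern = H := by
          funext i j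
          fin_cases i <;> fin_cases j <;> simp [onePattern, *]
        rw [← heq]; exact one_removal
    · -- equal rows, different columns: transpose of a row pattern
      have h10 : H 1 0 = H 0 0 := (congrFun hr 0).symm
      have h11 : H 1 1 = H 0 1 := (congrFun hr 1).symm
      have hne : H 0 0 ≠ H 0 1 := by
        intro h
        apply hc
        funext i
        fin_cases i
        · exact h
        · show H 1 0 = H 1 1
          rw [h10, h11, h]
      rcases hv : H 0 0 with _ | _
      · have hw : H 0 1 = true := by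
          rcases hw : H 0 1 with _ | _
          · exact absurd (hv.trans hw.symm) hne
          · rfl
        have h := PolyRemoval.transpose _ (PolyRemoval.transform (sel true) (sel true)
          (fun b => !b) (sel_sel _) (sel_sel _) (by simp) (sel_mono _) (sel_mono _) _ row_removal)
        have heq : (fun i j => Tr (sel true) (sel true) (fun b => !b) rowPattern j i) = H := by
          funext i j
          fin_cases i <;> fin_cases j <;> simp [Tr, rowPattern, sel, *]
        rwa [heq] at h
      · have hw : H 0 1 = false := by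
          rcases hw : H 0 1 with _ | _
          · rfl
          · exact absurd (hv.trans hw.symm) hne
        have h := PolyRemoval.transpose _ row_removal
        have heq : (fun i j => rowPattern j i) = H := by
          funext i j
          fin_cases i <;> fin_cases j <;> simp [rowPattern, *]
        rwa [heq] at h
  · by_cases hc : (fun i => H i 0) = (fun i => H i 1)
    · have h01 : H 0 1 = H 0 0 := (congrFun hc 0).symm
      have h11 : H 1 1 = H 1 0 := (congrFun hc 1).symm
      have hne : H 0 0 ≠ H 1 0 := by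
        intro h
        apply hr
        funext j
        fin_cases j
        · exact h
        · show H 0 1 = H 1 1
          rw [h01, h11, h]
      rcases hv : H 0 0 with _ | _
      · have hw : H 1 0 = true := by
          rcases hw : H 1 0 with _ | _
          · exact absurd (hv.trans hw.symm) hne
          · rfl
        have h := PolyRemoval.transform (sel true) (sel true)
          (fun b => !b) (sel_sel _) (sel_sel _) (by simp) (sel_mono _) (sel_mono _) _ row_removal
        have heq : Tr (sel true) (sel true) (fun b => !b) rowPattern = H := by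
          funext i j
          fin_cases i <;> fin_cases j <;> simp [Tr, rowPattern, sel, *]
        rwa [heq] at h
      · have hw : H 1 0 = false := by
          rcases hw : H 1 0 with _ | _
          · rfl
          · exact absurd (hv.trans hw.symm) hne
        have heq : rowPattern = H := by
          funext i j
          fin_cases i <;> fin_cases j <;> simp [rowPattern, *]
        rw [← heq]; exact row_removal
    · exact all_noninvariant H hr hc

end Vale.Agent.Lib.P037
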